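import Vale.Agent.P207.N3.H70.NF

/-!
# Normal form theorem for triangular systems (helper70)
-/

open Set Filter Topology Metric Module MvPolynomial
open scoped ContDiff

noncomputable section

namespace Vale.Agent.P207.N3.H70

variable {J : Type} [Fintype J] [DecidableEq J]

/-- **Normal form of a triangular system.** `v = Φ u` are the corrected variables,
`u i = v i - R i v`, and the raw map `S.F` becomes the polynomial map `pmap (S.Psi res)`. -/
structure NForm (S : TriSys J) where
  R : J → (J → ℝ) → ℝ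
  res : J → MvPolynomial J ℝ
  R_flat : ∀ i, IsFlat (S.ord i) (R i)
  R_dep : ∀ i, DependsOn (R i) (S.D i)
  R_base : ∀ i ∈ S.base, R i = 0
  res_base : ∀ i ∈ S.base, res i = 0
  res_supp : ∀ i, res i ∈ supported ℝ (S.D i)
  res_mult : ∀ i, ∀ α ∈ (res i).support, mult S.θ α = S.θ i
  res_ord : ∀ i, ∀ α ∈ (res i).support, S.ord i ≤ α.degree
  Φ : (J → ℝ) → J → ℝ
  Φ_smooth : ContDiff ℝ ∞ Φ
  Φ_zero : Φ 0 = 0
  Φ_eq : ∀ u i, Φ u i = u i + R i (Φ u)
  Φ_inv : ∀ v, Φ (fun i => v i - R i v) = v
  Φ_dep : ∀ i, DependsOn (fun u => Φ u i) (insert i (S.D i))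
  conj : ∀ u ∈ ball (0 : J → ℝ) (S.r / 2), Φ (S.F u) = pmap (S.Psi res) (Φ u)

namespace TriSys

variable {S : TriSys J}

omit [Fintype J] [DecidableEq J] in
/-- the sequence `x_{n+1} = u + R x_n` stabilises -/
theorem stab {rk : J → ℕ} {D : J → Set J} (hD : ∀ i, ∀ j ∈ D i, rk j < rk i)
    {R : J → (J → ℝ) → ℝ} (hR : ∀ i, DependsOn (R i) (D i)) (u : J → ℝ) (n : ℕ) :
    ∀ i, rk i < n → ((fun v => fun i => u i + R i v)^[n + 1] u) i
      = ((fun v => fun i => u i + R i v)^[n] u) i := by
  induction n with
  | zero => exact fun i hi => absurd hi (Nat.not_lt_zero _)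
  | succ n ih =>
    intro i hi
    set T : (J → ℝ) → J → ℝ := fun v i => u i + R i v with hT
    have e1 : (T^[n + 1 + 1] u) i = u i + R i (T^[n + 1] u) := by
      rw [Function.iterate_succ_apply']
    have e2 : (T^[n + 1] u) i = u i + R i (T^[n] u) := by
      rw [Function.iterate_succ_apply']
    rw [e1, e2]
    congr 1
    refine hR i fun j hj => ?_
    have := hD i j hj
    exact ih j (by omega)

omit [Fintype J] [DecidableEq J] in
/-- uniqueness of the corrected variables -/
theorem inj {rk : J → ℕ} {D : J → Set J} (hD : ∀ i, ∀ j ∈ D i, rk j < rk i)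
    {R : J → (J → ℝ) → ℝ} (hR : ∀ i, DependsOn (R i) (D i)) {v w : J → ℝ}
    (h : ∀ i, v i - R i v = w i - R i w) : v = w := by
  funext i
  induction hn : rk i using Nat.strong_induction_on generalizing i with
  | _ n ih =>
    have h1 : R i v = R i w := hR i fun j hj => ih (rk j) (hn ▸ hD i j hj) j rfl
    have h2 := h i
    rw [h1] at h2
    linarith

theorem nf (S : TriSys J) : Nonempty (NForm S) := by
  classical
  set n := (Finset.univ.sup S.rk) + 1 with hn
  have hlt : ∀ i, S.rk i < n := fun i => Nat.lt_succ_of_le (Finset.le_sup (Finset.mem_univ i))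
  obtain ⟨R, res, hRf, hRd, hres, hRb, hrb, hE⟩ := exists_step (S := S) n
  set T : (J → ℝ) → (J → ℝ) → J → ℝ := fun u v i => u i + R i v with hT
  set Φ : (J → ℝ) → J → ℝ := fun u => (T u)^[n] u with hΦ
  have hΦe : ∀ u i, Φ u i = u i + R i (Φ u) := by
    intro u i
    have h1 := stab S.D_rk hRd u n i (hlt i)
    rw [Function.iterate_succ_apply'] at h1
    exact h1.symm
  have hinj : ∀ {v w : J → ℝ}, (∀ i, v i - R i v = w i - R i w) → v = w :=
    fun h => inj S.D_rk hRd h
  have hinv : ∀ v, Φ (fun i => v i - R i v) = v := by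
    intro v
    refine hinj fun i => ?_
    rw [hΦe]
    ring
  have hsm : ∀ k, ContDiff ℝ ∞ fun u => (T u)^[k] u := by
    intro k
    induction k with
    | zero => exact contDiff_id
    | succ k ih =>
      have e : (fun u => (T u)^[k + 1] u) = fun u => T u ((T u)^[k] u) := by
        funext u
        rw [Function.iterate_succ_apply']
      rw [e, contDiff_pi]
      intro i
      exact (contDiff_apply ℝ ℝ i).add ((hRf i).1.comp ih)
  have h0 : Φ 0 = 0 := by
    refine hinj fun i => ?_
    have h1 := hΦe 0 i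
    have h2 : R i 0 = 0 := (hRf i).at_zero (S.ord_pos i)
    rw [h1, h2]
    simp
  refine ⟨⟨R, res, hRf, hRd, hRb, hrb, fun i => (hres i).1, fun i α hα => ((hres i).2 α hα).1,
    fun i α hα => ((hres i).2 α hα).2, Φ, hsm n, h0, hΦe, hinv, ?_, ?_⟩⟩
  · intro i
    induction hk : S.rk i using Nat.strong_induction_on generalizing i with
    | _ k ih =>
      intro u w huw
      show Φ u i = Φ w i
      rw [hΦe u i, hΦe w i, huw i (mem_insert i _)]
      congr 1
      refine hRd i fun j hj => ?_
      refine ih (S.rk j) (hk ▸ S.D_rk i j hj) j rfl fun l hl => ?_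
      rcases hl with rfl | hl
      · exact huw l (mem_insert_of_mem i hj)
      · exact huw l (mem_insert_of_mem i (S.D_trans i j hj hl))
  · intro u hu
    set v := Φ u with hv
    have huv : ∀ i, u i = v i - R i v := by
      intro i
      have := hΦe u i
      rw [← hv] at this
      linarith
    have hbase : ∀ i ∈ S.base, u i = v i := by
      intro i hi
      rw [huv i, hRb i hi]
      simp
    refine hinj fun i => ?_
    rw [hΦe]
    have h1 := hE i (hlt i) v
    have h2 : S.hh R i v = S.q i u - ∑ j, eval v (S.ℓ i j) * R j v := by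
      rw [hh]
      have : (fun j => v j - R j v) = u := funext fun j => (huv j).symm
      rw [this, (S.qt_spec i).2.2.1 u hu]
    have h3 : ∀ j, eval u (S.ℓ i j) = eval v (S.ℓ i j) := fun j =>
      eval_congr_of_supported (S.ℓ_supp i j) fun k hk => hbase k hk.1
    have h4 : S.F u i = S.θ i * u i + ∑ j, eval v (S.ℓ i j) * u j + S.q i u := by
      rw [F]
      simp_rw [h3]
    have h5 : ∑ j, eval v (S.ℓ i j) * u j
        = ∑ j, eval v (S.ℓ i j) * v j - ∑ j, eval v (S.ℓ i j) * R j v := by
      rw [← Finset.sum_sub_distrib]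
      exact Finset.sum_congr rfl fun j _ => by rw [huv j]; ring
    rw [eval_Psi, add_sub_cancel_right, h4, h5, huv i]
    rw [h2] at h1
    linear_combination h1

end TriSys

end Vale.Agent.P207.N3.H70
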