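import Vale.Agent.P207.N3.H70.Defs

/-!
# Generalised eigenvectors of algebra endomorphisms, weighted polynomials (helper70)
-/

open Finset Module

noncomputable section

namespace Vale.Agent.P207.N3.H70

section algebra

variable {A : Type*} [CommRing A] [Algebra ℝ A] (C : A →ₐ[ℝ] A)

/-- `C - l` -/
def dl (l : ℝ) : End ℝ A := C.toLinearMap - l • (1 : End ℝ A)

/-- generalised eigenvectors -/
abbrev GE (l : ℝ) : Submodule ℝ A := End.maxGenEigenspace (C.toLinearMap : End ℝ A) l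

theorem dl_apply (l : ℝ) (f : A) : dl C l f = C f - l • f := rfl

theorem mem_GE {l : ℝ} {f : A} : f ∈ GE C l ↔ ∃ N : ℕ, (dl C l ^ N) f = 0 :=
  End.mem_maxGenEigenspace _ _ _

theorem dl_pow_succ (l : ℝ) (n : ℕ) (f : A) : (dl C l ^ (n + 1)) f = (dl C l ^ n) (dl C l f) := by
  rw [pow_succ]
  rfl

theorem dl_pow_C (l : ℝ) (n : ℕ) (f : A) : (dl C l ^ n) (C f) = C ((dl C l ^ n) f) := by
  induction n generalizing f with
  | zero => rfl
  | succ n ih =>
    rw [dl_pow_succ, dl_pow_succ, ← ih]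
    congr 1
    rw [dl_apply, dl_apply, map_sub, map_smul]

theorem ge_mul_aux {l m : ℝ} (n : ℕ) : ∀ (a b : ℕ) (f g : A), a + b = n →
    (dl C l ^ a) f = 0 → (dl C m ^ b) g = 0 → (dl C (l * m) ^ n) (f * g) = 0 := by
  induction n with
  | zero =>
    intro a b f g hab hf _
    obtain ⟨rfl, rfl⟩ : a = 0 ∧ b = 0 := by omega
    have : f = 0 := hf
    rw [this, zero_mul, map_zero]
  | succ n ih =>
    intro a b f g hab hf hg
    rcases a with _ | a
    · have : f = 0 := hf
      rw [this, zero_mul, map_zero]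
    rcases b with _ | b
    · have : g = 0 := hg
      rw [this, mul_zero, map_zero]
    have e : dl C (l * m) (f * g) = dl C l f * C g + l • (f * dl C m g) := by
      rw [dl_apply, dl_apply, dl_apply, map_mul]
      simp only [sub_mul, mul_sub, smul_sub, smul_mul_assoc, mul_smul_comm, smul_smul]
      abel
    rw [dl_pow_succ, e, map_add, map_smul]
    rw [ih a (b + 1) (dl C l f) (C g) (by omega) (by rw [← dl_pow_succ]; exact hf)
      (by rw [dl_pow_C, hg, map_zero])]
    rw [ih (a + 1) b f (dl C m g) (by omega) hf (by rw [← dl_pow_succ]; exact hg)]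
    rw [smul_zero, add_zero]

theorem ge_mul {l m : ℝ} {f g : A} (hf : f ∈ GE C l) (hg : g ∈ GE C m) : f * g ∈ GE C (l * m) := by
  rw [mem_GE] at *
  obtain ⟨a, ha⟩ := hf
  obtain ⟨b, hb⟩ := hg
  exact ⟨a + b, ge_mul_aux C (a + b) a b f g rfl ha hb⟩

theorem ge_one : (1 : A) ∈ GE C 1 := by
  rw [mem_GE]
  refine ⟨1, ?_⟩
  rw [pow_one, dl_apply, map_one, one_smul, sub_self]

theorem ge_pow {l : ℝ} {f : A} (hf : f ∈ GE C l) (n : ℕ) : f ^ n ∈ GE C (l ^ n) := by
  induction n with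
  | zero => simpa using ge_one C
  | succ n ih => rw [pow_succ, pow_succ]; exact ge_mul C ih hf

theorem ge_prod {ι : Type*} (s : Finset ι) {l : ι → ℝ} {f : ι → A} (hf : ∀ i ∈ s, f i ∈ GE C (l i)) :
    ∏ i ∈ s, f i ∈ GE C (∏ i ∈ s, l i) := by
  classical
  induction s using Finset.induction_on with
  | empty => simpa using ge_one C
  | insert a s ha ih =>
    rw [prod_insert ha, prod_insert ha]
    exact ge_mul C (hf a (mem_insert_self a s)) (ih fun i hi => hf i (mem_insert_of_mem hi))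

theorem ge_of_dl {l : ℝ} {f : A} (hf : dl C l f ∈ GE C l) : f ∈ GE C l := by
  rw [mem_GE] at *
  obtain ⟨N, hN⟩ := hf
  exact ⟨N + 1, by rw [dl_pow_succ]; exact hN⟩

/-- iterates on generalised eigenvectors -/
theorem iter_eq {l : ℝ} {f : A} {N : ℕ} (hf : (dl C l ^ N) f = 0) (n : ℕ) :
    ((C.toLinearMap : End ℝ A) ^ n) f
      = ∑ i ∈ range N, ((n.choose i : ℝ) * l ^ (n - i)) • (dl C l ^ i) f := by
  have hz : ∀ i, N ≤ i → (dl C l ^ i) f = 0 := by
    intro i hi
    obtain ⟨k, rfl⟩ := Nat.exists_eq_add_of_le hi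
    rw [add_comm, pow_add, Module.End.mul_apply, hf, map_zero]
  have h1 : (C.toLinearMap : End ℝ A) = dl C l + l • (1 : End ℝ A) := by
    rw [dl, sub_add_cancel]
  have hc : Commute (dl C l) (l • (1 : End ℝ A)) :=
    (Commute.one_right _).smul_right l
  rw [h1, hc.add_pow, LinearMap.sum_apply]
  have h2 : ∀ i, (dl C l ^ i * (l • (1 : End ℝ A)) ^ (n - i) * ((n.choose i : ℕ) : End ℝ A)) f
      = ((n.choose i : ℝ) * l ^ (n - i)) • (dl C l ^ i) f := by
    intro i
    rw [smul_pow, one_pow, mul_smul_comm, mul_one, Module.End.mul_apply, ← nsmul_one,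
      LinearMap.smul_apply, LinearMap.smul_apply, Module.End.one_apply, map_nsmul,
      mul_comm, mul_smul, ← Nat.cast_smul_eq_nsmul ℝ]
  simp_rw [h2]
  have h3 : ∀ s : Finset ℕ, (∀ i, i < N → i ≤ n → i ∈ s) →
      ∑ i ∈ s, ((n.choose i : ℝ) * l ^ (n - i)) • (dl C l ^ i) f
      = ∑ i ∈ (range N ∩ range (n + 1)), ((n.choose i : ℝ) * l ^ (n - i)) • (dl C l ^ i) f := by
    intro s hs
    refine (sum_subset (fun i hi => ?_) fun i _ hi => ?_).symm
    · rw [mem_inter, mem_range, mem_range] at hi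
      exact hs i hi.1 (by omega)
    · rw [mem_inter, mem_range, mem_range, not_and_or, not_lt, not_lt] at hi
      rcases hi with hi | hi
      · rw [hz i hi, smul_zero]
      · rw [Nat.choose_eq_zero_of_lt (by omega), Nat.cast_zero, zero_mul, zero_smul]
  rw [h3 (range (n + 1)) fun i _ hi => mem_range.2 (by omega),
    h3 (range N) fun i hi _ => mem_range.2 hi]

/-- the equation `C R - m R = f` for `f` in the generalised eigenspace of `l ≠ m` -/
theorem ge_solve {l m : ℝ} (hlm : l ≠ m) {f : A} (hf : f ∈ GE C l) :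
    ∃ R : A, C R - m • R = f ∧
      ∀ S : Submodule ℝ A, (∀ g ∈ S, C g ∈ S) → f ∈ S → R ∈ S := by
  rw [mem_GE] at hf
  obtain ⟨N, hN⟩ := hf
  induction N generalizing f with
  | zero =>
    have : f = 0 := hN
    exact ⟨0, by rw [this]; simp, fun S _ _ => S.zero_mem⟩
  | succ N ih =>
    rw [dl_pow_succ] at hN
    obtain ⟨R, hR, hS⟩ := ih hN
    have hd : l - m ≠ 0 := sub_ne_zero.2 hlm
    refine ⟨(l - m)⁻¹ • (f - R), ?_, fun S h1 h2 => ?_⟩
    · have e : C (f - R) - m • (f - R) = (l - m) • f := by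
        rw [map_sub, smul_sub, sub_smul]
        have h3 : C R - m • R = C f - l • f := by rw [hR, dl_apply]
        linear_combination (exp := 1) -h3
      rw [map_smul, smul_comm m, ← smul_sub, e, smul_smul, inv_mul_cancel₀ hd, one_smul]
    · exact S.smul_mem _ (S.sub_mem h2 (hS S h1 (S.sub_mem (h1 f h2) (S.smul_mem l h2))))

end algebra

section poly

open MvPolynomial

variable {J : Type} (Ψ : J → MvPolynomial J ℝ)

theorem eval_aeval (v : J → ℝ) (p : MvPolynomial J ℝ) :
    eval v (aeval Ψ p) = eval (pmap Ψ v) p := by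
  induction p using MvPolynomial.induction_on with
  | C a => simp
  | add p q hp hq => rw [map_add, map_add, map_add, hp, hq]
  | mul_X p j hp => rw [map_mul, map_mul, map_mul, hp, aeval_X, eval_X]; rfl

theorem eval_iter (v : J → ℝ) (n : ℕ) (p : MvPolynomial J ℝ) :
    eval v ((((aeval Ψ : MvPolynomial J ℝ →ₐ[ℝ] MvPolynomial J ℝ).toLinearMap :
      End ℝ (MvPolynomial J ℝ)) ^ n) p) = eval ((pmap Ψ)^[n] v) p := by
  induction n generalizing v with
  | zero => rfl
  | succ n ih =>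
    rw [pow_succ', Module.End.mul_apply, Function.iterate_succ_apply, ← ih]
    exact eval_aeval Ψ v _

theorem mult_add (θ : J → ℝ) (α β : J →₀ ℕ) : mult θ (α + β) = mult θ α * mult θ β :=
  Finsupp.prod_add_index' (fun _ => pow_zero _) fun _ _ _ => pow_add _ _ _

theorem mult_zero (θ : J → ℝ) : mult θ 0 = 1 := Finsupp.prod_zero_index

theorem mult_single (θ : J → ℝ) (j : J) (k : ℕ) : mult θ (Finsupp.single j k) = θ j ^ k :=
  Finsupp.prod_single_index (pow_zero _)

/-- polynomials all of whose monomials have multiplier `l` -/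
def Wt (θ : J → ℝ) (l : ℝ) : Submodule ℝ (MvPolynomial J ℝ) :=
  restrictSupport ℝ {α | mult θ α = l}

theorem mem_Wt {θ : J → ℝ} {l : ℝ} {p : MvPolynomial J ℝ} :
    p ∈ Wt θ l ↔ ∀ α ∈ p.support, mult θ α = l := by
  rw [Wt, mem_restrictSupport_iff]
  rfl

/-- polynomials all of whose monomials have degree at least `o` -/
def Hi (J : Type) (o : ℕ) : Submodule ℝ (MvPolynomial J ℝ) :=
  restrictSupport ℝ {α | o ≤ α.degree}

theorem mem_Hi {o : ℕ} {p : MvPolynomial J ℝ} :
    p ∈ Hi J o ↔ ∀ α ∈ p.support, o ≤ α.degree := by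
  rw [Hi, mem_restrictSupport_iff]
  rfl

theorem Wt.mul {θ : J → ℝ} {l m : ℝ} {p q : MvPolynomial J ℝ} (hp : p ∈ Wt θ l)
    (hq : q ∈ Wt θ m) : p * q ∈ Wt θ (l * m) := by
  classical
  rw [mem_Wt] at *
  intro α hα
  obtain ⟨β, hβ, γ, hγ, rfl⟩ := mem_add.1 (support_mul p q hα)
  rw [mult_add, hp β hβ, hq γ hγ]

theorem Hi.mul {a b : ℕ} {p q : MvPolynomial J ℝ} (hp : p ∈ Hi J a) (hq : q ∈ Hi J b) :
    p * q ∈ Hi J (a + b) := by
  classical
  rw [mem_Hi] at *
  intro α hα
  obtain ⟨β, hβ, γ, hγ, rfl⟩ := mem_add.1 (support_mul p q hα)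
  rw [map_add]
  exact add_le_add (hp β hβ) (hq γ hγ)

end poly

end Vale.Agent.P207.N3.H70
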