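import Vale.Agent.P207.N3.H70.Ext2

/-!
# Orbits of triangular systems in corrected variables; the principle for raw variables (helper70)
-/

open Set Filter Topology Metric Module
open scoped ContDiff

noncomputable section

namespace Vale.Agent.P207.N3.H70

variable {J : Type} [Fintype J] [DecidableEq J] {S : TriSys J}

namespace NForm

theorem ok (N : NForm S) : S.ResOK N.res :=
  fun i => ⟨N.res_supp i, fun α hα => ⟨N.res_mult i α hα, N.res_ord i α hα⟩⟩

theorem ge (N : NForm S) (i : J) : MvPolynomial.X i ∈ GE (CC (S.Psi N.res)) (S.θ i) := N.ok.ge i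

theorem wt (N : NForm S) (i : J) : S.Psi N.res i ∈ Wt S.θ (S.θ i) := N.ok.wt i

theorem hi (N : NForm S) (i : J) : S.Psi N.res i ∈ Hi J 1 := N.ok.hi i

/-- orbits of the raw map are orbits of the normal form in the corrected variables -/
theorem orbit (N : NForm S) {u : ℕ → J → ℝ} (hu : ∀ n, u n ∈ ball (0 : J → ℝ) (S.r / 2))
    (hF : ∀ n, u (n + 1) = S.F (u n)) (n : ℕ) :
    N.Φ (u n) = (pmap (S.Psi N.res))^[n] (N.Φ (u 0)) := by
  induction n with
  | zero => rfl
  | succ n ih => rw [hF, N.conj _ (hu n), ih, Function.iterate_succ_apply']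

/-- one-point form: `v_i (φ ^ n y) = θ_i ^ n P_i (n)`, `P_i (0) = v_i (y)` -/
theorem orbit_poly (N : NForm S) {u : ℕ → J → ℝ} (hu : ∀ n, u n ∈ ball (0 : J → ℝ) (S.r / 2))
    (hF : ∀ n, u (n + 1) = S.F (u n)) (i : J) :
    ∃ P : Polynomial ℝ, P.eval 0 = N.Φ (u 0) i ∧
      ∀ n : ℕ, N.Φ (u n) i = S.θ i ^ n * P.eval (n : ℝ) := by
  obtain ⟨P, h1, h2⟩ := iter_poly N.ge (S.θ_ne i) (S.X_mem_Wt i) (N.Φ (u 0))
  refine ⟨P, by rw [h1, MvPolynomial.eval_X], fun n => ?_⟩
  rw [← h2 n, MvPolynomial.eval_X, N.orbit hu hF n]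

/-- Taylor polynomials of the corrections -/
theorem exists_taylor (N : NForm S) (K : ℕ) : ∃ r : J → MvPolynomial J ℝ,
    (∀ i, r i ∈ MvPolynomial.supported ℝ (S.D i)) ∧ (∀ i, i ∈ S.base → r i = 0) ∧
    (∀ i, ∀ α ∈ (r i).support, S.ord i ≤ α.degree) ∧
    ∀ i, IsFlat K fun v => N.R i v - MvPolynomial.eval v (r i) := by
  classical
  have key : ∀ i, ∃ r : MvPolynomial J ℝ, r ∈ MvPolynomial.supported ℝ (S.D i) ∧
      (i ∈ S.base → r = 0) ∧ (∀ α ∈ r.support, S.ord i ≤ α.degree) ∧
      IsFlat K fun v => N.R i v - MvPolynomial.eval v r := by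
    intro i
    by_cases hb : i ∈ S.base
    · refine ⟨0, Subalgebra.zero_mem _, fun _ => rfl, fun α hα => ?_, ?_⟩
      · rw [MvPolynomial.support_zero] at hα
        exact absurd hα (Finset.notMem_empty _)
      · refine (IsFlat.zero K).congr fun v => ?_
        rw [N.R_base i hb, Pi.zero_apply, map_zero, sub_zero]
    obtain ⟨p, _, hf0⟩ := exists_poly (max K (S.ord i)) (N.R_flat i).1
    set π : (J → ℝ) → J → ℝ := fun v j => if j ∈ S.D i then v j else 0 with hπ
    have hπf : ∀ j, IsFlat 1 fun v => π v j := by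
      intro j
      by_cases hj : j ∈ S.D i
      · exact (IsFlat.coord j).congr fun v => by rw [hπ]; simp [hj]
      · exact (IsFlat.zero 1).congr fun v => by rw [hπ]; simp [hj]
    set g : J → MvPolynomial J ℝ := fun j => if j ∈ S.D i then MvPolynomial.X j else 0 with hg
    set p' : MvPolynomial J ℝ := MvPolynomial.aeval g p with hp'
    have hgs : ∀ j, g j ∈ MvPolynomial.supported ℝ (S.D i) := by
      intro j
      by_cases hj : j ∈ S.D i
      · rw [hg]
        simp only [hj, if_true]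
        exact Algebra.subset_adjoin ⟨j, hj, rfl⟩
      · rw [hg]
        simp only [hj, if_false]
        exact Subalgebra.zero_mem _
    have hp's : p' ∈ MvPolynomial.supported ℝ (S.D i) := by
      have e1 : (MvPolynomial.aeval g : MvPolynomial J ℝ →ₐ[ℝ] MvPolynomial J ℝ).range
          ≤ MvPolynomial.supported ℝ (S.D i) := by
        rw [← Algebra.adjoin_range_eq_range_aeval]
        refine Algebra.adjoin_le ?_
        rintro _ ⟨j, rfl⟩
        exact hgs j
      exact e1 ⟨p, rfl⟩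
    have hev : ∀ v, MvPolynomial.eval v p' = MvPolynomial.eval (π v) p := by
      intro v
      rw [hp', eval_aeval]
      congr 1
      congr 1
      funext j
      show MvPolynomial.eval v (g j) = π v j
      rw [hg, hπ]
      by_cases hj : j ∈ S.D i
      · simp [hj]
      · simp [hj]
    have hRπ : ∀ v, N.R i v = N.R i (π v) := by
      intro v
      refine N.R_dep i fun j hj => ?_
      rw [hπ]
      simp [hj]
    have hf : IsFlat (max K (S.ord i)) fun v => N.R i v - MvPolynomial.eval v p' := by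
      refine (hf0.comp (w := π) hπf).congr fun v => ?_
      show N.R i v - MvPolynomial.eval v p' = N.R i (π v) - MvPolynomial.eval (π v) p
      rw [hev, ← hRπ]
    refine ⟨p', hp's, fun h => absurd h hb, ?_, hf.mono (le_max_left _ _)⟩
    refine mem_Hi.1 (mem_Hi_of_flat
      (((N.R_flat i).sub (hf.mono (le_max_right K (S.ord i)))).congr fun v => ?_))
    ring
  choose r h1 h2 h3 h4 using key
  exact ⟨r, h1, h2, h3, h4⟩

end NForm

section raw

variable {J' : Type} [Fintype J'] [DecidableEq J'] {S' : TriSys J'}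

/-- the substitution `u = v - r v` in both groups of variables -/
def subst (r : J → MvPolynomial J ℝ) (r' : J' → MvPolynomial J' ℝ) :
    MvPolynomial (J ⊕ J') ℝ →ₐ[ℝ] MvPolynomial (J ⊕ J') ℝ :=
  MvPolynomial.aeval (Sum.elim (fun j => MvPolynomial.rename Sum.inl (MvPolynomial.X j - r j))
    (fun j => MvPolynomial.rename Sum.inr (MvPolynomial.X j - r' j)))

omit [Fintype J] [DecidableEq J] [Fintype J'] [DecidableEq J'] in
theorem eval_subst (r : J → MvPolynomial J ℝ) (r' : J' → MvPolynomial J' ℝ)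
    (e : MvPolynomial (J ⊕ J') ℝ) (v : J → ℝ) (v' : J' → ℝ) :
    MvPolynomial.eval (Sum.elim v v') (subst r r' e)
      = MvPolynomial.eval (Sum.elim (fun j => v j - MvPolynomial.eval v (r j))
          (fun j => v' j - MvPolynomial.eval v' (r' j))) e := by
  rw [subst, eval_aeval]
  congr 1
  congr 1
  funext x
  rcases x with j | j
  · show MvPolynomial.eval _ (MvPolynomial.rename Sum.inl _) = _
    rw [MvPolynomial.eval_rename, Sum.elim_comp_inl, map_sub, MvPolynomial.eval_X]
    rfl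
  · show MvPolynomial.eval _ (MvPolynomial.rename Sum.inr _) = _
    rw [MvPolynomial.eval_rename, Sum.elim_comp_inr, map_sub, MvPolynomial.eval_X]
    rfl

/-- polynomials differ little at points which differ by flat functions -/
theorem isFlat_eval_sub {I I' : Type} [Fintype I] [Fintype I'] {K : ℕ}
    {a b : (I' → ℝ) → I → ℝ} (ha : ∀ i, ContDiff ℝ ∞ fun w => a w i)
    (hb : ∀ i, ContDiff ℝ ∞ fun w => b w i) (hab : ∀ i, IsFlat K fun w => a w i - b w i)
    (e : MvPolynomial I ℝ) :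
    IsFlat K fun w => MvPolynomial.eval (a w) e - MvPolynomial.eval (b w) e := by
  induction e using MvPolynomial.induction_on with
  | C c => exact (IsFlat.zero K).congr fun w => by simp
  | add p q hp hq => exact (hp.add hq).congr fun w => by rw [map_add, map_add]; ring
  | mul_X p i hp =>
    have h1 : ContDiff ℝ ∞ fun w => MvPolynomial.eval (b w) p :=
      (contDiff_eval p).comp (contDiff_pi.2 hb)
    have h2 := (IsFlat.mul_left (ha i) hp).add (IsFlat.mul_left h1 (hab i))
    refine h2.congr fun w => ?_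
    rw [map_mul, map_mul, MvPolynomial.eval_X, MvPolynomial.eval_X]
    ring

/-- **THE TWO-POINT PRINCIPLE IN RAW VARIABLES.** `e` is a polynomial in the raw variables of two
triangular systems, small along the pairs `(u n, u' (n + j))` of two orbits; then the components
of bi-multiplier `(l, m)`, `|l m| > ρ`, of the polynomial `e (v - r v, v' - r' v')` vanish at the
corrected variables `v = Φ (u 0)`, `v' = Φ' (u' 0)`. -/
theorem NForm.principle (N : NForm S) (N' : NForm S') {K : ℕ}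
    {r : J → MvPolynomial J ℝ} {r' : J' → MvPolynomial J' ℝ}
    (hr : ∀ i, IsFlat K fun v => N.R i v - MvPolynomial.eval v (r i))
    (hr' : ∀ i, IsFlat K fun v => N'.R i v - MvPolynomial.eval v (r' i))
    {σ : ℝ} (hσ0 : 0 < σ) (hσ1 : σ < 1) (hσ : ∀ j, |S.θ j| < σ) (hσ' : ∀ j, |S'.θ j| < σ)
    {u : ℕ → J → ℝ} (hu : ∀ n, u n ∈ ball (0 : J → ℝ) (S.r / 2))
    (hF : ∀ n, u (n + 1) = S.F (u n))
    {u' : ℕ → J' → ℝ} (hu' : ∀ n, u' n ∈ ball (0 : J' → ℝ) (S'.r / 2))
    (hF' : ∀ n, u' (n + 1) = S'.F (u' n))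
    (e : MvPolynomial (J ⊕ J') ℝ) {ρ : ℝ} (hρ : 0 < ρ) (hK : σ ^ K ≤ ρ)
    (H : ∀ j : ℕ, ∃ M : ℝ, ∀ᶠ n : ℕ in atTop,
      |MvPolynomial.eval (Sum.elim (u n) (u' (n + j))) e| ≤ M * ρ ^ n)
    {l m : ℝ} (hlm : ρ < |l * m|) :
    ∑ γ ∈ (subst r r' e).support.filter (fun γ => multL S.θ γ = l ∧ multR S'.θ γ = m),
      (subst r r' e).coeff γ * (multL (N.Φ (u 0)) γ * multR (N'.Φ (u' 0)) γ) = 0 := by
  set a : (J ⊕ J' → ℝ) → J ⊕ J' → ℝ := fun w => Sum.elim
    (fun j => w (Sum.inl j) - N.R j (fun i => w (Sum.inl i)))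
    (fun j => w (Sum.inr j) - N'.R j (fun i => w (Sum.inr i))) with ha
  set b : (J ⊕ J' → ℝ) → J ⊕ J' → ℝ := fun w => Sum.elim
    (fun j => w (Sum.inl j) - MvPolynomial.eval (fun i => w (Sum.inl i)) (r j))
    (fun j => w (Sum.inr j) - MvPolynomial.eval (fun i => w (Sum.inr i)) (r' j)) with hb
  have hL : ∀ j, IsFlat 1 fun w : J ⊕ J' → ℝ => (fun i => w (Sum.inl i) : J → ℝ) j :=
    fun j => IsFlat.coord (Sum.inl j)
  have hR : ∀ j, IsFlat 1 fun w : J ⊕ J' → ℝ => (fun i => w (Sum.inr i) : J' → ℝ) j :=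
    fun j => IsFlat.coord (Sum.inr j)
  have hLs : ContDiff ℝ ∞ fun w : J ⊕ J' → ℝ => (fun i => w (Sum.inl i) : J → ℝ) :=
    contDiff_pi.2 fun j => (hL j).1
  have hRs : ContDiff ℝ ∞ fun w : J ⊕ J' → ℝ => (fun i => w (Sum.inr i) : J' → ℝ) :=
    contDiff_pi.2 fun j => (hR j).1
  have has : ∀ i, ContDiff ℝ ∞ fun w => a w i := by
    rintro (i | i)
    · exact (hL i).1.sub ((N.R_flat i).1.comp hLs)
    · exact (hR i).1.sub ((N'.R_flat i).1.comp hRs)
  have hbs : ∀ i, ContDiff ℝ ∞ fun w => b w i := by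
    rintro (i | i)
    · exact (hL i).1.sub ((contDiff_eval (r i)).comp hLs)
    · exact (hR i).1.sub ((contDiff_eval (r' i)).comp hRs)
  have hab : ∀ i, IsFlat K fun w => a w i - b w i := by
    rintro (i | i)
    · refine ((hr i).comp hL).neg.congr fun w => ?_
      show (w (Sum.inl i) - N.R i (fun i => w (Sum.inl i)))
        - (w (Sum.inl i) - MvPolynomial.eval (fun i => w (Sum.inl i)) (r i)) = _
      ring
    · refine ((hr' i).comp hR).neg.congr fun w => ?_
      show (w (Sum.inr i) - N'.R i (fun i => w (Sum.inr i)))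
        - (w (Sum.inr i) - MvPolynomial.eval (fun i => w (Sum.inr i)) (r' i)) = _
      ring
  obtain ⟨C0, _, hC0⟩ := (isFlat_eval_sub has hbs hab e).bound 1
  have hbe : ∀ w, MvPolynomial.eval (b w) e = MvPolynomial.eval w (subst r r' e) := by
    intro w
    have e1 : w = Sum.elim (fun i => w (Sum.inl i)) (fun i => w (Sum.inr i)) := by
      funext x
      rcases x with x | x <;> rfl
    rw [e1, eval_subst]
    rfl
  refine principle_smooth S.θ_ne S'.θ_ne N.ge N'.ge N.hi N'.hi hσ0 hσ1 hσ hσ'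
    (F := fun w => MvPolynomial.eval (a w) e) (p := subst r r' e) (K := K) (C0 := C0) one_pos
    (fun w hw => ?_) _ _ hρ hK (fun j => ?_) hlm
  · rw [← hbe]
    exact hC0 w hw.le
  · obtain ⟨M, hM⟩ := H j
    refine ⟨M, ?_⟩
    filter_upwards [hM] with n hn
    have e2 : a (Sum.elim ((pmap (S.Psi N.res))^[n] (N.Φ (u 0)))
        ((pmap (S'.Psi N'.res))^[n + j] (N'.Φ (u' 0)))) = Sum.elim (u n) (u' (n + j)) := by
      rw [← N.orbit hu hF, ← N'.orbit hu' hF']
      funext x
      rcases x with x | x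
      · show N.Φ (u n) x - N.R x (N.Φ (u n)) = u n x
        rw [N.Φ_eq, add_sub_cancel_right]
      · show N'.Φ (u' (n + j)) x - N'.R x (N'.Φ (u' (n + j))) = u' (n + j) x
        rw [N'.Φ_eq, add_sub_cancel_right]
    show |MvPolynomial.eval (a _) e| ≤ _
    rw [e2]
    exact hn

end raw

end Vale.Agent.P207.N3.H70
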