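import Vale.Agent.P207.N3.H70.Ext3
import Vale.Agent.P207.N3.H547.Princ

/-!
# One-point principle; smooth corrected variables are weighted polynomials (helper70)
-/

open Finset Filter Topology Module
open scoped ContDiff

noncomputable section

namespace Vale.Agent.P207.N3.H70

section one

variable {J : Type} [Fintype J]

/-- the part of multiplier `l` of a polynomial -/
def wpart (θ : J → ℝ) (l : ℝ) (p : MvPolynomial J ℝ) : MvPolynomial J ℝ :=
  ∑ α ∈ p.support.filter (fun α => mult θ α = l), MvPolynomial.monomial α (p.coeff α)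

omit [Fintype J] in
theorem wpart_mem (θ : J → ℝ) (l : ℝ) (p : MvPolynomial J ℝ) : wpart θ l p ∈ Wt θ l := by
  refine Submodule.sum_mem _ fun α hα => mem_Wt.2 fun β hβ => ?_
  have := MvPolynomial.support_monomial_subset hβ
  rw [mem_singleton] at this
  rw [this]
  exact (mem_filter.1 hα).2

omit [Fintype J] in
theorem coeff_wpart (θ : J → ℝ) (l : ℝ) (p : MvPolynomial J ℝ) (β : J →₀ ℕ) :
    (wpart θ l p).coeff β = if mult θ β = l then p.coeff β else 0 := by
  classical
  rw [wpart, MvPolynomial.coeff_sum]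
  simp only [MvPolynomial.coeff_monomial]
  rw [sum_ite_eq' (p.support.filter fun α => mult θ α = l) β fun α => p.coeff α]
  simp only [mem_filter, MvPolynomial.mem_support_iff]
  by_cases h1 : mult θ β = l
  · by_cases h2 : p.coeff β = 0
    · simp [h2]
    · simp [h1, h2]
  · simp [h1]

omit [Fintype J] in
/-- **THE ONE-POINT PRINCIPLE** -/
theorem principle_one {θ : J → ℝ} {Ψ : J → MvPolynomial J ℝ} (h0 : ∀ j, θ j ≠ 0)
    (hΨ : ∀ j, MvPolynomial.X j ∈ GE (CC Ψ) (θ j)) (p : MvPolynomial J ℝ) (v : J → ℝ) {ρ : ℝ}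
    (hρ : 0 < ρ) (H : ∃ K : ℝ, ∀ᶠ n : ℕ in atTop,
      |MvPolynomial.eval ((pmap Ψ)^[n] v) p| ≤ K * ρ ^ n) {l : ℝ} (hl : ρ < |l|) :
    MvPolynomial.eval v (wpart θ l p) = 0 := by
  have hmo : ∀ α : J →₀ ℕ, (MvPolynomial.monomial α (p.coeff α)) ∈ Wt θ (mult θ α) := by
    intro α
    rw [mem_Wt]
    intro β hβ
    have := MvPolynomial.support_monomial_subset hβ
    rw [mem_singleton] at this
    rw [this]
  have hne : ∀ α : J →₀ ℕ, mult θ α ≠ 0 :=
    fun α => prod_ne_zero_iff.2 fun j _ => pow_ne_zero _ (h0 j)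
  choose P hP0 hP using fun α : J →₀ ℕ => iter_poly hΨ (hne α) (hmo α) v
  have hev : ∀ n : ℕ, MvPolynomial.eval ((pmap Ψ)^[n] v) p
      = ∑ α ∈ p.support, mult θ α ^ n * (P α).eval (n : ℝ) := by
    intro n
    have e : p = ∑ α ∈ p.support, MvPolynomial.monomial α (p.coeff α) := p.as_sum
    have e2 := congrArg (MvPolynomial.eval ((pmap Ψ)^[n] v)) e
    rw [e2, map_sum]
    exact sum_congr rfl fun α _ => hP α n
  have h1 : ∃ K : ℝ, ∀ n : ℕ, |∑ α ∈ p.support, mult θ α ^ n * (P α).eval (n : ℝ)| ≤ K * ρ ^ n := by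
    obtain ⟨K, hK⟩ := H
    have h2 : (fun n : ℕ => MvPolynomial.eval ((pmap Ψ)^[n] v) p) =O[atTop] fun n : ℕ => ρ ^ n := by
      refine Asymptotics.IsBigO.of_bound K ?_
      filter_upwards [hK] with n hn
      rw [Real.norm_eq_abs, Real.norm_eq_abs, abs_of_pos (pow_pos hρ n)]
      exact hn
    obtain ⟨C, _, hC⟩ := Asymptotics.bound_of_isBigO_nat_atTop h2
    refine ⟨C, fun n => ?_⟩
    have := hC (x := n) (pow_pos hρ n).ne'
    rw [Real.norm_eq_abs, Real.norm_eq_abs, abs_of_pos (pow_pos hρ n), hev] at this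
    exact this
  have h3 := expPoly_unique p.support (mult θ) P hρ.le h1 hl
  have h4 := congrArg (Polynomial.eval 0) h3
  rw [Polynomial.eval_finsetSum, Polynomial.eval_zero] at h4
  rw [wpart, map_sum]
  exact Eq.trans (sum_congr rfl fun α _ => (hP0 α).symm) h4

/-- the one-point principle for a function with Taylor polynomial `p` -/
theorem principle_one_smooth {θ : J → ℝ} {Ψ : J → MvPolynomial J ℝ} (h0 : ∀ j, θ j ≠ 0)
    (hΨ : ∀ j, MvPolynomial.X j ∈ GE (CC Ψ) (θ j)) (hH : ∀ j, Ψ j ∈ Hi J 1)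
    {σ : ℝ} (hσ0 : 0 < σ) (hσ1 : σ < 1) (hσ : ∀ j, |θ j| < σ)
    {F : (J → ℝ) → ℝ} {p : MvPolynomial J ℝ} {K : ℕ} {ε C0 : ℝ} (hε : 0 < ε)
    (hF : ∀ w : J → ℝ, ‖w‖ < ε → |F w - MvPolynomial.eval w p| ≤ C0 * ‖w‖ ^ K)
    (v : J → ℝ) {ρ : ℝ} (hρ : 0 < ρ) (hK : σ ^ K ≤ ρ)
    (H : ∃ M : ℝ, ∀ᶠ n : ℕ in atTop, |F ((pmap Ψ)^[n] v)| ≤ M * ρ ^ n) {l : ℝ} (hl : ρ < |l|) :
    MvPolynomial.eval v (wpart θ l p) = 0 := by
  obtain ⟨B, hB0, hB⟩ := iter_bound hΨ h0 hσ hσ0 hH v
  refine principle_one h0 hΨ p v hρ ?_ hl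
  obtain ⟨M, hM⟩ := H
  have hε' : ∀ᶠ n : ℕ in atTop, B * σ ^ n < ε := by
    have h1 := (tendsto_pow_atTop_nhds_zero_of_lt_one hσ0.le hσ1).const_mul B
    rw [mul_zero] at h1
    exact h1.eventually_lt_const hε
  refine ⟨M + |C0| * B ^ K, ?_⟩
  filter_upwards [hM, hε'] with n h1 h2
  set w : J → ℝ := (pmap Ψ)^[n] v with hwd
  have h3 := hF w ((hB n).trans_lt h2)
  have h4 : |MvPolynomial.eval w p| ≤ |F w| + |F w - MvPolynomial.eval w p| := by
    have : MvPolynomial.eval w p = F w - (F w - MvPolynomial.eval w p) := by ring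
    calc |MvPolynomial.eval w p| = |F w - (F w - MvPolynomial.eval w p)| := by rw [← this]
      _ ≤ _ := abs_sub _ _
  have h5 : C0 * ‖w‖ ^ K ≤ |C0| * B ^ K * ρ ^ n := by
    calc C0 * ‖w‖ ^ K ≤ |C0| * (B * σ ^ n) ^ K := by
          refine mul_le_mul (le_abs_self _) (pow_le_pow_left₀ (norm_nonneg _) (hB n) K)
            (by positivity) (abs_nonneg _)
      _ = |C0| * B ^ K * (σ ^ K) ^ n := by
          rw [mul_pow, ← pow_mul, ← pow_mul, mul_comm n K, mul_assoc]
      _ ≤ |C0| * B ^ K * ρ ^ n := by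
          refine mul_le_mul_of_nonneg_left (pow_le_pow_left₀ (by positivity) hK n) (by positivity)
  rw [add_mul]
  exact h4.trans (add_le_add h1 (h3.trans h5))

end one

section hom

variable {J : Type} [Fintype J] [DecidableEq J] {S : TriSys J}

/-- Taylor polynomials of functions of the variables in `D` -/
theorem exists_taylor_dep {D : Set J} {f : (J → ℝ) → ℝ} (K : ℕ) (hf : ContDiffAt ℝ K f 0)
    (hfD : DependsOn f D) : ∃ q ∈ MvPolynomial.supported ℝ D, ∃ ε > (0 : ℝ), ∃ C : ℝ,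
      ∀ w : J → ℝ, ‖w‖ < ε → |f w - MvPolynomial.eval w q| ≤ C * ‖w‖ ^ K := by
  classical
  obtain ⟨p, hp, _⟩ := H547.taylor_mv K f hf
  obtain ⟨C, hC⟩ := hp.bound
  obtain ⟨ε, hε, hb⟩ := Metric.eventually_nhds_iff.1 hC
  set π : (J → ℝ) → J → ℝ := fun v j => if j ∈ D then v j else 0 with hπ
  have hπn : ∀ v, ‖π v‖ ≤ ‖v‖ := by
    intro v
    rw [pi_norm_le_iff_of_nonneg (norm_nonneg v)]
    intro j
    rw [hπ]
    by_cases hj : j ∈ D
    · simp only [hj, if_true]
      exact norm_le_pi_norm v j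
    · simp [hj]
  set g : J → MvPolynomial J ℝ := fun j => if j ∈ D then MvPolynomial.X j else 0 with hg
  have hgs : ∀ j, g j ∈ MvPolynomial.supported ℝ D := by
    intro j
    by_cases hj : j ∈ D
    · rw [hg]
      simp only [hj, if_true]
      exact Algebra.subset_adjoin ⟨j, hj, rfl⟩
    · rw [hg]
      simp only [hj, if_false]
      exact Subalgebra.zero_mem _
  have hs : MvPolynomial.aeval g p ∈ MvPolynomial.supported ℝ D := by
    have e1 : (MvPolynomial.aeval g : MvPolynomial J ℝ →ₐ[ℝ] MvPolynomial J ℝ).range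
        ≤ MvPolynomial.supported ℝ D := by
      rw [← Algebra.adjoin_range_eq_range_aeval]
      refine Algebra.adjoin_le ?_
      rintro _ ⟨j, rfl⟩
      exact hgs j
    exact e1 ⟨p, rfl⟩
  have hev : ∀ v, MvPolynomial.eval v (MvPolynomial.aeval g p) = MvPolynomial.eval (π v) p := by
    intro v
    rw [eval_aeval]
    congr 1
    congr 1
    funext j
    show MvPolynomial.eval v (g j) = π v j
    rw [hg, hπ]
    by_cases hj : j ∈ D
    · simp [hj]
    · simp [hj]
  refine ⟨MvPolynomial.aeval g p, hs, ε, hε, |C|, fun w hw => ?_⟩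
  have h1 : f w = f (π w) := by
    refine hfD fun i hi => ?_
    rw [hπ]
    simp [hi]
  rw [hev, h1]
  have h2 := hb (y := π w) (by rw [dist_zero_right]; exact (hπn w).trans_lt hw)
  rw [Real.norm_eq_abs, norm_pow, norm_norm] at h2
  refine h2.trans ?_
  exact mul_le_mul (le_abs_self C) (pow_le_pow_left₀ (norm_nonneg _) (hπn w) K) (by positivity)
    (abs_nonneg C)

/-- **HOMOGENEITY.** Let `f` be smooth at `0`, a function of the variables in `D` (the base
variables, say). There is a polynomial `g` in the variables of `D`, all of whose monomials have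
multiplier `θ i`, such that along every orbit with `v i = f v` the corrected variable `v i` is
`g v`. -/
theorem NForm.hom (N : NForm S) (i : J) {D : Set J} {f : (J → ℝ) → ℝ}
    (hf : ContDiffAt ℝ ∞ f 0) (hfD : DependsOn f D) :
    ∃ g : MvPolynomial J ℝ, g ∈ MvPolynomial.supported ℝ D ∧ g ∈ Wt S.θ (S.θ i) ∧
      ∀ u : ℕ → J → ℝ, (∀ n, u n ∈ Metric.ball (0 : J → ℝ) (S.r / 2)) →
        (∀ n, u (n + 1) = S.F (u n)) → (∀ᶠ n in atTop, N.Φ (u n) i = f (N.Φ (u n))) →
        N.Φ (u 0) i = MvPolynomial.eval (N.Φ (u 0)) g := by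
  obtain ⟨σ, hσ0, hσ1, hσ⟩ := exists_sigma S.θ_lt
  obtain ⟨K, hK⟩ := exists_pow_lt_of_lt_one (abs_pos.2 (S.θ_ne i)) hσ1
  obtain ⟨q, hqs, ε, hε, C, hC⟩ := exists_taylor_dep K (hf.of_le (by exact_mod_cast le_top)) hfD
  refine ⟨wpart S.θ (S.θ i) q, ?_, wpart_mem _ _ _, fun u hu hF hfu => ?_⟩
  · refine mem_supported_iff'.2 fun α hα => mem_supported_iff'.1 hqs α ?_
    rw [MvPolynomial.mem_support_iff, coeff_wpart] at hα
    rw [MvPolynomial.mem_support_iff]
    intro h0
    rw [h0, ite_self] at hα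
    exact hα rfl
  · have h1 := principle_one_smooth S.θ_ne N.ge N.hi hσ0 hσ1 hσ
      (F := fun w => w i - f w) (p := MvPolynomial.X i - q) (K := K) (C0 := C) hε
      (fun w hw => ?_) (N.Φ (u 0)) (ρ := σ ^ K) (by positivity) le_rfl ⟨0, ?_⟩ (l := S.θ i) hK
    · have h2 : wpart S.θ (S.θ i) (MvPolynomial.X i - q)
          = MvPolynomial.X i - wpart S.θ (S.θ i) q := by
        ext β
        rw [coeff_wpart, MvPolynomial.coeff_sub, MvPolynomial.coeff_sub, coeff_wpart]
        by_cases hβ : mult S.θ β = S.θ i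
        · simp only [hβ, if_true]
        · simp only [hβ, if_false]
          have : MvPolynomial.coeff β (MvPolynomial.X i : MvPolynomial J ℝ) = 0 := by
            by_contra hne
            exact hβ (mem_Wt.1 (S.X_mem_Wt i) β (MvPolynomial.mem_support_iff.2 hne))
          rw [this, sub_zero]
      rw [h2, map_sub, MvPolynomial.eval_X] at h1
      linarith
    · have h3 := hC w hw
      rw [map_sub, MvPolynomial.eval_X]
      have e : w i - f w - (w i - MvPolynomial.eval w q) = -(f w - MvPolynomial.eval w q) := by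
        ring
      rw [e, abs_neg]
      exact h3
    · filter_upwards [hfu] with n hn
      show |((pmap (S.Psi N.res))^[n] (N.Φ (u 0))) i
        - f ((pmap (S.Psi N.res))^[n] (N.Φ (u 0)))| ≤ _
      rw [← N.orbit hu hF n, hn, sub_self, abs_zero, zero_mul]

end hom

end Vale.Agent.P207.N3.H70
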