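import Vale.Agent.P207.N3.H70.Ser

/-!
# The cohomological equation for smooth functions (helper70)

`R (ψ v) - m R v + h v = res v` for all `v`, `ψ` a weighted polynomial contraction, `h` smooth,
`R` smooth, `res` a polynomial with monomials of multiplier exactly `m`.
-/

open Set Filter Topology Metric Module
open scoped ContDiff

noncomputable section

namespace Vale.Agent.P207.N3.H70

variable {J : Type} [Fintype J] {Ψ : J → MvPolynomial J ℝ} {θ : J → ℝ}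

open MvPolynomial in
theorem eval_congr_of_supported {J : Type} {D : Set J} {p : MvPolynomial J ℝ}
    (hp : p ∈ supported ℝ D) {v w : J → ℝ} (h : ∀ i ∈ D, v i = w i) : eval v p = eval w p := by
  have : supported ℝ D ≤ AlgHom.equalizer (aeval v : MvPolynomial J ℝ →ₐ[ℝ] ℝ) (aeval w) := by
    refine Algebra.adjoin_le ?_
    rintro _ ⟨j, hj, rfl⟩
    rw [SetLike.mem_coe, AlgHom.mem_equalizer, aeval_X, aeval_X]
    exact h j hj
  have h1 := this hp
  rw [AlgHom.mem_equalizer, aeval_eq_eval, aeval_eq_eval] at h1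
  exact h1

theorem pmap_congr {J : Type} {Ψ : J → MvPolynomial J ℝ} {D : Set J}
    (hD : ∀ j ∈ D, Ψ j ∈ MvPolynomial.supported ℝ D) {v w : J → ℝ}
    (h : ∀ i ∈ D, v i = w i) (n : ℕ) : ∀ i ∈ D, ((pmap Ψ)^[n] v) i = ((pmap Ψ)^[n] w) i := by
  induction n generalizing v w with
  | zero => exact h
  | succ n ih =>
    rw [Function.iterate_succ_apply, Function.iterate_succ_apply]
    exact ih fun i hi => eval_congr_of_supported (hD i hi) h

/-- the flat part of the cohomological equation -/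
theorem flat_ce (hΨ : ∀ j, MvPolynomial.X j ∈ GE (CC Ψ) (θ j)) (h0 : ∀ j, θ j ≠ 0) {σ : ℝ}
    (hσ : ∀ j, |θ j| < σ) (hσ0 : 0 < σ) (hσ1 : σ < 1) (hH : ∀ j, Ψ j ∈ Hi J 1) {m : ℝ}
    (hm : m ≠ 0) {K : ℕ} (hK : σ ^ K < |m|) {f : (J → ℝ) → ℝ} (hf : IsFlat K f) :
    ∃ R : (J → ℝ) → ℝ, ContDiff ℝ ∞ R ∧ (∀ v, R (pmap Ψ v) - m * R v + f v = 0) ∧
      (∃ C : ℝ, ∀ v : J → ℝ, ‖v‖ < 1 → |R v| ≤ C * ‖v‖ ^ K) ∧
      ∀ D : Set J, (∀ j ∈ D, Ψ j ∈ MvPolynomial.supported ℝ D) → DependsOn f D →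
        DependsOn R D := by
  obtain ⟨N, c, τ, T, hc, hτ, hit⟩ := exists_iter hΨ h0 hσ hσ0 hH
  obtain ⟨g, hg, hfg⟩ := hf.2
  set M : (J → Fin N → ℝ) → (J → ℝ) → J → ℝ :=
    fun τ v j => ∑ i, τ j i * MvPolynomial.eval v (c j i) with hM
  have hMs : ContDiff ℝ ∞ fun z : (J → Fin N → ℝ) × (J → ℝ) => M z.1 z.2 := by
    rw [contDiff_pi]
    intro j
    refine ContDiff.sum fun i _ => ContDiff.mul ?_ ((contDiff_eval (c j i)).comp contDiff_snd)
    exact (contDiff_apply ℝ ℝ i).comp ((contDiff_apply ℝ (Fin N → ℝ) j).comp contDiff_fst)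
  have hψ : ∀ n v, (pmap Ψ)^[n] v = σ ^ n • M (τ n) v := by
    intro n v
    funext j
    exact hit n v j
  have hfψ : ∀ n v, f ((pmap Ψ)^[n] v) = (σ ^ K) ^ n * g (σ ^ n, M (τ n) v) := by
    intro n v
    rw [hψ, hfg, ← pow_mul, ← pow_mul, mul_comm n K]
  -- the general term
  set a : ℕ → (J → ℝ) → ℝ := fun n v => m⁻¹ ^ (n + 1) * f ((pmap Ψ)^[n] v) with ha
  have hr0 : 0 ≤ |m|⁻¹ * σ ^ K := by positivity
  have hr1 : |m|⁻¹ * σ ^ K < 1 := by
    rw [inv_mul_lt_iff₀ (abs_pos.2 hm), mul_one]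
    exact hK
  -- cut off
  have key : ∀ ρ : ℝ, 0 < ρ → ∃ χ : (J → ℝ) → ℝ, (∀ v, ‖v‖ ≤ ρ → χ v = 1) ∧
      ContDiff ℝ ∞ fun v => ∑' n, χ v * a n v := by
    intro ρ hρ
    let χ : ContDiffBump (0 : J → ℝ) := ⟨ρ, ρ + 1, hρ, by linarith⟩
    refine ⟨χ, fun v hv => χ.one_of_mem_closedBall (mem_closedBall_zero_iff.2 hv), ?_⟩
    set H : (ℝ × (J → Fin N → ℝ)) × (J → ℝ) → ℝ := fun z => χ z.2 * g (z.1.1, M z.1.2 z.2) with hHd
    have hHs : ContDiff ℝ ∞ H :=
      (χ.contDiff.comp contDiff_snd).mul (hg.comp ((contDiff_fst.comp contDiff_fst).prodMk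
        (hMs.comp ((contDiff_snd.comp contDiff_fst).prodMk contDiff_snd))))
    have hHz : ∀ p v, ρ + 1 < ‖v‖ → H (p, v) = 0 := by
      intro p v hv
      have : χ v = 0 := χ.zero_of_le_dist (by rw [dist_zero_right]; exact hv.le)
      rw [hHd]
      show χ v * _ = 0
      rw [this, zero_mul]
    have hKc : IsCompact ((Icc (0 : ℝ) 1) ×ˢ closedBall (0 : J → Fin N → ℝ) T) :=
      isCompact_Icc.prod (isCompact_closedBall _ _)
    choose C hC0 hC using fun k => bound_iter hHs hKc hHz k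
    have hp : ∀ n, (σ ^ n, τ n) ∈ (Icc (0 : ℝ) 1) ×ˢ closedBall (0 : J → Fin N → ℝ) T := by
      intro n
      exact ⟨⟨by positivity, pow_le_one₀ hσ0.le hσ1.le⟩, mem_closedBall_zero_iff.2 (hτ n)⟩
    have e : ∀ n, (fun v => χ v * a n v) = fun v =>
        (m⁻¹ ^ (n + 1) * (σ ^ K) ^ n) • H ((σ ^ n, τ n), v) := by
      intro n
      funext v
      show χ v * (m⁻¹ ^ (n + 1) * f ((pmap Ψ)^[n] v))
        = (m⁻¹ ^ (n + 1) * (σ ^ K) ^ n) * (χ v * g (σ ^ n, M (τ n) v))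
      rw [hfψ]
      ring
    have hHn : ∀ n, ContDiff ℝ ∞ fun v => H ((σ ^ n, τ n), v) := fun n =>
      hHs.comp (contDiff_const.prodMk contDiff_id)
    refine contDiff_tsum (N := ⊤) (v := fun k n => |m|⁻¹ * (|m|⁻¹ * σ ^ K) ^ n * C k) ?_ ?_ ?_
    · intro n
      rw [e n]
      exact (hHn n).const_smul _
    · intro k _
      exact ((summable_geometric_of_lt_one hr0 hr1).mul_left _).mul_right _
    · intro k n v _
      rw [e n, iteratedFDeriv_const_smul_apply' ((hHn n).contDiffAt.of_le (by exact_mod_cast le_top)),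
        norm_smul]
      have h1 : ‖m⁻¹ ^ (n + 1) * (σ ^ K) ^ n‖ = |m|⁻¹ * (|m|⁻¹ * σ ^ K) ^ n := by
        rw [norm_mul, norm_pow, norm_inv, Real.norm_eq_abs, Real.norm_eq_abs,
          abs_of_nonneg (by positivity : (0 : ℝ) ≤ (σ ^ K) ^ n)]
        ring
      rw [h1]
      exact mul_le_mul_of_nonneg_left (hC k _ (hp n) v) (by positivity)
  -- pointwise summability
  have hsum : ∀ v, Summable fun n => a n v := by
    intro v
    have hc : IsCompact ((Icc (0 : ℝ) 1) ×ˢ closedBall (0 : J → Fin N → ℝ) T) :=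
      isCompact_Icc.prod (isCompact_closedBall _ _)
    have hcont : Continuous fun p : ℝ × (J → Fin N → ℝ) => g (p.1, M p.2 v) :=
      hg.continuous.comp (continuous_fst.prodMk (hMs.continuous.comp
        (continuous_snd.prodMk continuous_const)))
    obtain ⟨C, hC⟩ := hc.exists_bound_of_continuousOn hcont.continuousOn
    refine Summable.of_norm_bounded (g := fun n => |m|⁻¹ * (|m|⁻¹ * σ ^ K) ^ n * C)
      (((summable_geometric_of_lt_one hr0 hr1).mul_left _).mul_right _) fun n => ?_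
    have h1 := hC (σ ^ n, τ n)
      ⟨⟨by positivity, pow_le_one₀ hσ0.le hσ1.le⟩, mem_closedBall_zero_iff.2 (hτ n)⟩
    show ‖m⁻¹ ^ (n + 1) * f ((pmap Ψ)^[n] v)‖ ≤ _
    rw [hfψ, norm_mul, norm_mul, norm_pow, norm_inv, Real.norm_eq_abs m,
      norm_pow, norm_pow, Real.norm_eq_abs σ, abs_of_pos hσ0]
    calc |m|⁻¹ ^ (n + 1) * ((σ ^ K) ^ n * ‖g (σ ^ n, M (τ n) v)‖)
        = |m|⁻¹ * (|m|⁻¹ * σ ^ K) ^ n * ‖g (σ ^ n, M (τ n) v)‖ := by ring
      _ ≤ _ := mul_le_mul_of_nonneg_left h1 (by positivity)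
  refine ⟨fun v => ∑' n, a n v, ?_, ?_, ?_, ?_⟩
  · rw [contDiff_iff_contDiffAt]
    intro v0
    obtain ⟨χ, hχ1, hχs⟩ := key (‖v0‖ + 1) (by positivity)
    refine hχs.contDiffAt.congr_of_eventuallyEq ?_
    have : {v : J → ℝ | ‖v‖ < ‖v0‖ + 1} ∈ 𝓝 v0 :=
      (isOpen_lt continuous_norm continuous_const).mem_nhds (by
        show ‖v0‖ < ‖v0‖ + 1
        linarith)
    filter_upwards [this] with v hv
    have h1 : χ v = 1 := hχ1 v (le_of_lt hv)
    simp_rw [h1, one_mul]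
  · intro v
    show (∑' n, a n (pmap Ψ v)) - m * (∑' n, a n v) + f v = 0
    have h1 : ∀ n, a n (pmap Ψ v) = m * a (n + 1) v := by
      intro n
      show m⁻¹ ^ (n + 1) * f ((pmap Ψ)^[n] (pmap Ψ v))
        = m * (m⁻¹ ^ (n + 1 + 1) * f ((pmap Ψ)^[n + 1] v))
      rw [← Function.iterate_succ_apply, pow_succ _ (n + 1)]
      field_simp
    have h2 : (∑' n, a n v) = a 0 v + ∑' n, a (n + 1) v := (hsum v).tsum_eq_zero_add
    have h3 : a 0 v = m⁻¹ * f v := by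
      show m⁻¹ ^ (0 + 1) * f v = m⁻¹ * f v
      rw [zero_add, pow_one]
    simp_rw [h1]
    rw [tsum_mul_left, h2, h3]
    field_simp
    ring
  · -- the bound
    choose B hB0 hB using fun (j : J) (i : Fin N) => (isFlat_eval (c j i) (mem_Hi.1 (hc j i))).bound 1
    have hT : 0 ≤ T := (norm_nonneg _).trans (hτ 0)
    set B' : ℝ := ∑ j, ∑ i, T * B j i with hB'
    have hB'0 : 0 ≤ B' := Finset.sum_nonneg fun j _ => Finset.sum_nonneg fun i _ =>
      mul_nonneg hT (hB0 j i)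
    have hMb : ∀ n v, ‖v‖ < 1 → ‖M (τ n) v‖ ≤ B' * ‖v‖ := by
      intro n v hv
      rw [pi_norm_le_iff_of_nonneg (by positivity)]
      intro j
      have h1 : ‖M (τ n) v j‖ ≤ ∑ i, T * B j i * ‖v‖ := by
        refine (norm_sum_le _ _).trans (Finset.sum_le_sum fun i _ => ?_)
        rw [norm_mul]
        have h2 : ‖τ n j i‖ ≤ T := ((norm_le_pi_norm _ i).trans (norm_le_pi_norm _ j)).trans (hτ n)
        have h3 := hB j i v hv.le
        rw [pow_one] at h3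
        rw [mul_assoc]
        exact mul_le_mul h2 h3 (norm_nonneg _) hT
      refine h1.trans ?_
      rw [hB', Finset.sum_mul]
      have h4 : ∑ i, T * B j i * ‖v‖ = (∑ i, T * B j i) * ‖v‖ := by rw [Finset.sum_mul]
      rw [h4]
      exact Finset.single_le_sum (f := fun j => (∑ i, T * B j i) * ‖v‖)
        (fun j _ => mul_nonneg (Finset.sum_nonneg fun i _ => mul_nonneg hT (hB0 j i))
          (norm_nonneg _)) (Finset.mem_univ j)
    obtain ⟨Cf, hCf0, hCf⟩ := hf.bound B'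
    have hterm : ∀ n v, ‖v‖ < 1 →
        ‖a n v‖ ≤ |m|⁻¹ * (|m|⁻¹ * σ ^ K) ^ n * (Cf * (B' * ‖v‖) ^ K) := by
      intro n v hv
      have h1 : ‖(pmap Ψ)^[n] v‖ ≤ σ ^ n * (B' * ‖v‖) := by
        rw [hψ, norm_smul, norm_pow, Real.norm_eq_abs, abs_of_pos hσ0]
        exact mul_le_mul_of_nonneg_left (hMb n v hv) (by positivity)
      have h2 : ‖(pmap Ψ)^[n] v‖ ≤ B' := by
        refine h1.trans ?_
        have h3 : σ ^ n ≤ 1 := pow_le_one₀ hσ0.le hσ1.le
        have h4 : B' * ‖v‖ ≤ B' := mul_le_of_le_one_right hB'0 hv.le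
        calc σ ^ n * (B' * ‖v‖) ≤ 1 * B' := mul_le_mul h3 h4 (by positivity) zero_le_one
          _ = B' := one_mul _
      have h3 := hCf _ h2
      show ‖m⁻¹ ^ (n + 1) * f ((pmap Ψ)^[n] v)‖ ≤ _
      rw [norm_mul, norm_pow, norm_inv, Real.norm_eq_abs m, Real.norm_eq_abs (f _)]
      calc |m|⁻¹ ^ (n + 1) * |f ((pmap Ψ)^[n] v)|
          ≤ |m|⁻¹ ^ (n + 1) * (Cf * (σ ^ n * (B' * ‖v‖)) ^ K) := by
            refine mul_le_mul_of_nonneg_left (h3.trans ?_) (by positivity)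
            exact mul_le_mul_of_nonneg_left (pow_le_pow_left₀ (norm_nonneg _) h1 K) hCf0
        _ = _ := by ring
    refine ⟨(∑' n, |m|⁻¹ * (|m|⁻¹ * σ ^ K) ^ n) * (Cf * B' ^ K), fun v hv => ?_⟩
    have hs := (summable_geometric_of_lt_one hr0 hr1).mul_left |m|⁻¹
    have h1 := tsum_of_norm_bounded (hs.mul_right (Cf * (B' * ‖v‖) ^ K)).hasSum
      fun n => hterm n v hv
    rw [Real.norm_eq_abs, tsum_mul_right] at h1
    refine h1.trans (le_of_eq ?_)
    rw [mul_pow]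
    ring
  · intro D hD hfD v w hvw
    show (∑' n, a n v) = ∑' n, a n w
    refine tsum_congr fun n => ?_
    show m⁻¹ ^ (n + 1) * f ((pmap Ψ)^[n] v) = m⁻¹ ^ (n + 1) * f ((pmap Ψ)^[n] w)
    rw [hfD (pmap_congr hD hvw n)]

end Vale.Agent.P207.N3.H70
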