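import Vale.Agent.P207.N3.H70.CE

/-!
# The cohomological equation, final form (helper70)
-/

open Set Filter Topology Metric Module
open scoped ContDiff

noncomputable section

namespace Vale.Agent.P207.N3.H70

open MvPolynomial in
theorem mem_supported_iff' {J : Type} {D : Set J} {p : MvPolynomial J ℝ} :
    p ∈ supported ℝ D ↔ ∀ α ∈ p.support, ∀ j ∈ α.support, j ∈ D := by
  rw [mem_supported]
  constructor
  · intro h α hα j hj
    exact h ((mem_vars_iff_mem_support j).2 ⟨α, hα, hj⟩)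
  · intro h j hj
    obtain ⟨α, hα, hj'⟩ := (mem_vars_iff_mem_support j).1 hj
    exact h α hα j hj'

variable {J : Type} [Fintype J] {Ψ : J → MvPolynomial J ℝ} {θ : J → ℝ}

open MvPolynomial in
theorem mem_Hi_of_flat {o : ℕ} {p : MvPolynomial J ℝ}
    (hp : IsFlat o fun v : J → ℝ => eval v p) : p ∈ Hi J o := by
  classical
  set lo : MvPolynomial J ℝ := ∑ α ∈ p.support.filter (fun α => α.degree < o),
    monomial α (p.coeff α) with hlo
  set hi : MvPolynomial J ℝ := ∑ α ∈ p.support.filter (fun α => ¬ α.degree < o),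
    monomial α (p.coeff α) with hhi
  have e : lo + hi = p := by
    rw [hlo, hhi, Finset.sum_filter_add_sum_filter_not, support_sum_monomial_coeff]
  have hsup : ∀ (P : (J →₀ ℕ) → Prop) [DecidablePred P],
      ∀ α ∈ (∑ α ∈ p.support.filter P, monomial α (p.coeff α)).support, P α := by
    intro P _ α hα
    obtain ⟨β, hβ, h3⟩ := Finset.mem_biUnion.1 (support_sum hα)
    have h4 : α = β := by
      by_contra hne
      rw [MvPolynomial.mem_support_iff, coeff_monomial, if_neg (Ne.symm hne)] at h3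
      exact h3 rfl
    rw [h4]
    exact (Finset.mem_filter.1 hβ).2
  have h1 : ∀ α ∈ hi.support, o ≤ α.degree := fun α hα => not_lt.1 (hsup _ α hα)
  have h2 : ∀ α ∈ lo.support, α.degree < o := fun α hα => hsup _ α hα
  have h3 : IsFlat o fun v : J → ℝ => eval v lo := by
    refine (hp.sub (isFlat_eval hi h1)).congr fun v => ?_
    rw [← e, map_add, add_sub_cancel_right]
  obtain ⟨C, _, hC⟩ := h3.bound 1
  have h4 : lo = 0 := mvPoly_eq_zero_of_bound lo h2 one_pos fun v hv => hC v hv.le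
  rw [mem_Hi, ← e, h4, zero_add]
  exact h1

/-- **the cohomological equation** -/
theorem ce [DecidableEq J] (hΨ : ∀ j, MvPolynomial.X j ∈ GE (CC Ψ) (θ j)) (h0 : ∀ j, θ j ≠ 0)
    (h1 : ∀ j, |θ j| < 1) (hH : ∀ j, Ψ j ∈ Hi J 1) {m : ℝ} (hm : m ≠ 0) {D : Set J}
    (hD : ∀ j ∈ D, Ψ j ∈ MvPolynomial.supported ℝ D) {o : ℕ} {h : (J → ℝ) → ℝ}
    (hh : IsFlat o h) (hdep : DependsOn h D) :
    ∃ (R : (J → ℝ) → ℝ) (res : MvPolynomial J ℝ), IsFlat o R ∧ DependsOn R D ∧
      res ∈ MvPolynomial.supported ℝ D ∧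
      (∀ α ∈ res.support, mult θ α = m ∧ o ≤ α.degree) ∧
      ∀ v, R (pmap Ψ v) - m * R v + h v = MvPolynomial.eval v res := by
  classical
  obtain ⟨σ, hσ0, hσ1, hσ⟩ := exists_sigma h1
  obtain ⟨K0, hK0⟩ := exists_pow_lt_of_lt_one (abs_pos.2 hm) hσ1
  set K := max K0 o with hKd
  have hK : σ ^ K < |m| :=
    (pow_le_pow_of_le_one hσ0.le hσ1.le (le_max_left K0 o)).trans_lt hK0
  obtain ⟨p, _, hf0⟩ := exists_poly K hh.1
  set π : (J → ℝ) → J → ℝ := fun v j => if j ∈ D then v j else 0 with hπ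
  have hπf : ∀ j, IsFlat 1 fun v => π v j := by
    intro j
    by_cases hj : j ∈ D
    · exact (IsFlat.coord j).congr fun v => by rw [hπ]; simp [hj]
    · exact (IsFlat.zero 1).congr fun v => by rw [hπ]; simp [hj]
  set g : J → MvPolynomial J ℝ := fun j => if j ∈ D then MvPolynomial.X j else 0 with hg
  set p' : MvPolynomial J ℝ := MvPolynomial.aeval g p with hp'
  have hgs : ∀ j, g j ∈ MvPolynomial.supported ℝ D := by
    intro j
    by_cases hj : j ∈ D
    · rw [hg]
      simp only [hj, if_true]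
      exact Algebra.subset_adjoin ⟨j, hj, rfl⟩
    · rw [hg]
      simp only [hj, if_false]
      exact Subalgebra.zero_mem _
  have hp's : p' ∈ MvPolynomial.supported ℝ D := by
    have e1 : (MvPolynomial.aeval g : MvPolynomial J ℝ →ₐ[ℝ] MvPolynomial J ℝ).range
        ≤ MvPolynomial.supported ℝ D := by
      rw [← Algebra.adjoin_range_eq_range_aeval]
      refine Algebra.adjoin_le ?_
      rintro _ ⟨j, rfl⟩
      exact hgs j
    exact e1 ⟨p, rfl⟩
  have hev : ∀ v, MvPolynomial.eval v p' = MvPolynomial.eval (π v) p := by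
    intro v
    rw [hp', eval_aeval]
    congr 1
    congr 1
    funext j
    show MvPolynomial.eval v (g j) = π v j
    rw [hg, hπ]
    by_cases hj : j ∈ D
    · simp [hj]
    · simp [hj]
  set f : (J → ℝ) → ℝ := fun v => h v - MvPolynomial.eval v p' with hfd
  have hhπ : ∀ v, h v = h (π v) := by
    intro v
    refine hdep fun i hi => ?_
    rw [hπ]
    simp [hi]
  have hf : IsFlat K f := by
    refine (hf0.comp (w := π) hπf).congr fun v => ?_
    rw [hfd]
    show h v - MvPolynomial.eval v p' = h (π v) - MvPolynomial.eval (π v) p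
    rw [hev, ← hhπ]
  have hfdep : DependsOn f D := by
    intro v w hvw
    rw [hfd]
    show h v - MvPolynomial.eval v p' = h w - MvPolynomial.eval w p'
    rw [hdep hvw, eval_congr_of_supported hp's hvw]
  have hp'o : p' ∈ Hi J o := by
    refine mem_Hi_of_flat ((hh.sub (hf.mono (le_max_right K0 o))).congr fun v => ?_)
    rw [hfd]
    ring
  obtain ⟨R1, res, hR1, hres, hS⟩ := poly_ce Ψ hΨ m p'
  have hmon : ∀ α ∈ p'.support, ∀ S : Submodule ℝ (MvPolynomial J ℝ),
      (∀ q : MvPolynomial J ℝ, q.support ⊆ p'.support → q ∈ S) →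
      MvPolynomial.monomial α (p'.coeff α) ∈ S := by
    intro α hα S hS'
    refine hS' _ fun β hβ => ?_
    have := MvPolynomial.support_monomial_subset hβ
    rw [Finset.mem_singleton] at this
    rwa [this]
  have hR1o : R1 ∈ Hi J o := hS (Hi J o) (fun g hg => CC_Hi Ψ hH hg) fun α hα =>
    hmon α hα _ fun q hq => mem_Hi.2 fun β hβ => mem_Hi.1 hp'o β (hq hβ)
  have hR1s : R1 ∈ Subalgebra.toSubmodule (MvPolynomial.supported ℝ D) :=
    hS _ (fun g hg => CC_supported Ψ hD hg) fun α hα =>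
      hmon α hα _ fun q hq => mem_supported_iff'.2 fun β hβ =>
        mem_supported_iff'.1 hp's β (hq hβ)
  obtain ⟨R2, hR2s, hR2e, ⟨C, hR2b⟩, hR2d⟩ := flat_ce hΨ h0 hσ hσ0 hσ1 hH hm hK hf
  have hR2f : IsFlat K R2 := isFlat_of_bound hR2s one_pos hR2b
  refine ⟨fun v => MvPolynomial.eval v R1 + R2 v, res, ?_, ?_, ?_, ?_, ?_⟩
  · exact (isFlat_eval R1 (mem_Hi.1 hR1o)).add (hR2f.mono (le_max_right K0 o))
  · intro v w hvw
    show MvPolynomial.eval v R1 + R2 v = MvPolynomial.eval w R1 + R2 w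
    rw [eval_congr_of_supported hR1s hvw, hR2d D hD hfdep hvw]
  · exact mem_supported_iff'.2 fun α hα => mem_supported_iff'.1 hp's α (hres α hα).2
  · exact fun α hα => ⟨(hres α hα).1, mem_Hi.1 hp'o α (hres α hα).2⟩
  · intro v
    have h2 := hR2e v
    have h3 : MvPolynomial.eval v res = MvPolynomial.eval (pmap Ψ v) R1
        - m * MvPolynomial.eval v R1 + MvPolynomial.eval v p' := by
      rw [← hR1, map_add, map_sub, MvPolynomial.smul_eval, eval_aeval]
    rw [h3]
    rw [hfd] at h2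
    linear_combination h2

end Vale.Agent.P207.N3.H70
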