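import Mathlib

/-!
# P207, line N3, row P3CE (helper70): definitions

Triangular systems of jets under a contraction, exact weights (multipliers), polynomial dynamics.
-/

open Metric
open scoped ContDiff

noncomputable section

namespace Vale.Agent.P207.N3.H70

/-- the multiplier `∏ θ_j ^ α_j` of the monomial `X^α` -/
def mult {J : Type} (θ : J → ℝ) (α : J →₀ ℕ) : ℝ := α.prod fun j k => θ j ^ k

/-- `f (s v) = s ^ K g (s, v)` with `g` smooth: the function `f` vanishes at `0` to order `K` -/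
def IsFlat {J : Type} [Fintype J] (K : ℕ) (f : (J → ℝ) → ℝ) : Prop :=
  ContDiff ℝ ∞ f ∧ ∃ g : ℝ × (J → ℝ) → ℝ, ContDiff ℝ ∞ g ∧
    ∀ (s : ℝ) (v : J → ℝ), f (s • v) = s ^ K * g (s, v)

/-- the polynomial map with components `Ψ j` -/
def pmap {J : Type} (Ψ : J → MvPolynomial J ℝ) (v : J → ℝ) : J → ℝ :=
  fun j => MvPolynomial.eval v (Ψ j)

/-- A triangular system: the raw map is
`F u i = θ i * u i + ∑ j, ℓ i j (u) * u j + q i (u)`, `ℓ i j` an exactly resonant polynomial in the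
base variables, `q i` a smooth function of the variables in `D i`, of order `≥ ord i`. -/
structure TriSys (J : Type) [Fintype J] [DecidableEq J] where
  θ : J → ℝ
  θ_ne : ∀ j, θ j ≠ 0
  θ_lt : ∀ j, |θ j| < 1
  rk : J → ℕ
  base : Set J
  D : J → Set J
  ord : J → ℕ
  ℓ : J → J → MvPolynomial J ℝ
  q : J → (J → ℝ) → ℝ
  r : ℝ
  r_pos : 0 < r
  ord_pos : ∀ i, 1 ≤ ord i
  D_rk : ∀ i, ∀ j ∈ D i, rk j < rk i
  D_trans : ∀ i, ∀ j ∈ D i, D j ⊆ D i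
  D_ℓ : ∀ i, ∀ j ∈ D i, ∀ k, ℓ j k ≠ 0 → k ∈ D i
  ℓ_rk : ∀ i j, ℓ i j ≠ 0 → rk j < rk i
  ℓ_D : ∀ i j, ℓ i j ≠ 0 → D j ⊆ D i
  ℓ_ord : ∀ i j, ℓ i j ≠ 0 → ord i ≤ ord j
  ℓ_base : ∀ i ∈ base, ∀ j, ℓ i j ≠ 0 → j ∈ base
  ℓ_supp : ∀ i j, ℓ i j ∈ MvPolynomial.supported ℝ (base ∩ D i)
  ℓ_res : ∀ i j, ∀ α ∈ (ℓ i j).support, mult θ α * θ j = θ i
  q_base : ∀ i ∈ base, q i = 0
  q_dep : ∀ i, DependsOn (q i) (D i)
  q_smooth : ∀ i, ContDiffOn ℝ ∞ (q i) (ball 0 r)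
  q_flat : ∀ i, ∃ C : ℝ, ∀ u ∈ ball (0 : J → ℝ) r, |q i u| ≤ C * ‖u‖ ^ ord i

/-- the raw map of a triangular system -/
def TriSys.F {J : Type} [Fintype J] [DecidableEq J] (S : TriSys J) (u : J → ℝ) : J → ℝ :=
  fun i => S.θ i * u i + ∑ j, MvPolynomial.eval u (S.ℓ i j) * u j + S.q i u

end Vale.Agent.P207.N3.H70
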