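import Mathlib

/-!
# Uniqueness of exponential-polynomial expansions in one and two variables (helper70)
-/

open Finset Filter Topology Polynomial

noncomputable section

namespace Vale.Agent.P207.N3.H70

/-- a polynomial whose values along `ℕ` tend to zero is zero -/
theorem poly_zero_of_tendsto (p : ℝ[X]) (h : Tendsto (fun n : ℕ => p.eval (n : ℝ)) atTop (𝓝 0)) :
    p = 0 := by
  by_contra hp
  have h1 := (Polynomial.isEquivalent_atTop_lead p).comp_tendsto tendsto_natCast_atTop_atTop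
  have h2 : Tendsto (fun n : ℕ => p.leadingCoeff * (n : ℝ) ^ p.natDegree) atTop (𝓝 0) :=
    (h1.tendsto_nhds_iff (c := (0 : ℝ))).1 h
  have h3 : ∀ᶠ n : ℕ in atTop, |p.leadingCoeff| ≤ |p.leadingCoeff * (n : ℝ) ^ p.natDegree| := by
    filter_upwards [eventually_ge_atTop 1] with n hn
    rw [abs_mul, abs_pow, Nat.abs_cast]
    have : (1 : ℝ) ≤ (n : ℝ) ^ p.natDegree := one_le_pow₀ (by exact_mod_cast hn)
    exact le_mul_of_one_le_right (abs_nonneg _) this
  have h4 := ge_of_tendsto h2.abs h3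
  rw [abs_zero] at h4
  exact hp (leadingCoeff_eq_zero.1 (abs_eq_zero.1 (le_antisymm h4 (abs_nonneg _))))

/-- the shift operator on exponential polynomials -/
def shp (c d : ℝ) (p : ℝ[X]) : ℝ[X] := C c * taylor 1 p - C d * p

theorem eval_shp (c d : ℝ) (p : ℝ[X]) (n : ℕ) :
    c ^ (n + 1) * p.eval ((n + 1 : ℕ) : ℝ) - d * (c ^ n * p.eval (n : ℝ))
      = c ^ n * (shp c d p).eval (n : ℝ) := by
  rw [shp, eval_sub, eval_mul, eval_mul, eval_C, eval_C, taylor_eval, Nat.cast_add, Nat.cast_one]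
  ring

theorem degree_C_mul_le' (c : ℝ) (p : ℝ[X]) : (C c * p).degree ≤ p.degree := by
  rw [← smul_eq_C_mul]
  exact degree_smul_le c p

theorem degree_shp_le (c d : ℝ) (p : ℝ[X]) : (shp c d p).degree ≤ p.degree := by
  rw [shp]
  refine (degree_sub_le _ _).trans (max_le ?_ ?_)
  · refine (degree_C_mul_le' _ _).trans (le_of_eq ?_)
    exact degree_taylor p 1
  · exact degree_C_mul_le' _ _

theorem degree_shp_lt {c : ℝ} {p : ℝ[X]} (hp : p ≠ 0) :
    (shp c c p).degree < p.degree := by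
  have e : shp c c p = C c * (taylor 1 p - p) := by rw [shp]; ring
  rw [e]
  refine (degree_C_mul_le' _ _).trans_lt ?_
  have h1 : (taylor 1 p).degree = p.degree := degree_taylor p 1
  have h2 : taylor (1 : ℝ) p ≠ 0 := by
    rw [Ne, ← degree_eq_bot, h1, degree_eq_bot]
    exact hp
  have h3 := degree_sub_lt_left h1 h2 (leadingCoeff_taylor 1 p)
  rwa [h1] at h3

theorem shp_ne_zero {c d : ℝ} (hcd : c ≠ d) {p : ℝ[X]} (hp : p ≠ 0) : shp c d p ≠ 0 := by
  intro h
  have h1 : (shp c d p).coeff p.natDegree = (c - d) * p.leadingCoeff := by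
    rw [shp, coeff_sub, coeff_C_mul, coeff_C_mul]
    have h2 : (taylor 1 p).coeff p.natDegree = p.leadingCoeff := by
      have := leadingCoeff_taylor (1 : ℝ) p
      rw [leadingCoeff, natDegree_taylor] at this
      exact this
    rw [h2, coeff_natDegree]
    ring
  rw [h, coeff_zero] at h1
  have h3 := mul_ne_zero (sub_ne_zero.2 hcd) (leadingCoeff_ne_zero.2 hp)
  exact h3 h1.symm

/-- size of a polynomial: `0` for the zero polynomial, degree plus one otherwise -/
def psz (p : ℝ[X]) : ℕ := if p = 0 then 0 else p.natDegree + 1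

theorem psz_le {p q : ℝ[X]} (h : p.degree ≤ q.degree) : psz p ≤ psz q := by
  rw [psz, psz]
  by_cases hp : p = 0
  · rw [if_pos hp]
    exact Nat.zero_le _
  · have hq : q ≠ 0 := by
      intro hq
      rw [hq, degree_zero, le_bot_iff, degree_eq_bot] at h
      exact hp h
    rw [if_neg hp, if_neg hq]
    exact Nat.succ_le_succ (natDegree_le_natDegree h)

theorem psz_lt {p q : ℝ[X]} (h : p.degree < q.degree) : psz p < psz q := by
  have hq : q ≠ 0 := by
    intro hq
    rw [hq, degree_zero] at h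
    exact not_lt_bot h
  rw [psz, psz, if_neg hq]
  by_cases hp : p = 0
  · rw [if_pos hp]
    exact Nat.succ_pos _
  · rw [if_neg hp]
    exact Nat.succ_lt_succ (natDegree_lt_natDegree hp h)

/-- **uniqueness**, distinct bases -/
theorem expPoly_unique_aux (T : Finset ℝ) {ρ : ℝ} (hρ : 0 ≤ ρ) {c0 : ℝ}
    (hc0 : c0 ∈ T) (hc0ρ : ρ < |c0|) (k : ℕ) : ∀ (p : ℝ → ℝ[X]),
    (∑ c ∈ T.erase c0, psz (p c)) = k →
    (∃ K : ℝ, ∀ n : ℕ, |∑ c ∈ T, c ^ n * (p c).eval (n : ℝ)| ≤ K * ρ ^ n) → p c0 = 0 := by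
  induction k using Nat.strong_induction_on with
  | _ k ih =>
    intro p hk hb
    by_contra hne
    obtain ⟨K, hK⟩ := hb
    by_cases hall : ∀ c ∈ T.erase c0, p c = 0
    · have h1 : ∀ n : ℕ, ∑ c ∈ T, c ^ n * (p c).eval (n : ℝ) = c0 ^ n * (p c0).eval (n : ℝ) := by
        intro n
        rw [← add_sum_erase T _ hc0]
        rw [sum_eq_zero fun c hc => by rw [hall c hc, eval_zero, mul_zero], add_zero]
      have hc00 : (0 : ℝ) < |c0| := hρ.trans_lt hc0ρ
      refine hne (poly_zero_of_tendsto (p c0) ?_)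
      have h2 : Tendsto (fun n : ℕ => K * (ρ / |c0|) ^ n) atTop (𝓝 0) := by
        have := (tendsto_pow_atTop_nhds_zero_of_lt_one (r := ρ / |c0|) (by positivity)
          ((div_lt_one hc00).2 hc0ρ)).const_mul K
        rwa [mul_zero] at this
      refine squeeze_zero_norm (fun n => ?_) h2
      have h3 := hK n
      rw [h1, abs_mul, abs_pow] at h3
      rw [Real.norm_eq_abs, div_pow, ← mul_div_assoc, le_div_iff₀ (by positivity), mul_comm]
      exact h3
    · push Not at hall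
      obtain ⟨c1, hc1, hp1⟩ := hall
      obtain ⟨hc10, hc1T⟩ := mem_erase.1 hc1
      have hlt : ∑ c ∈ T.erase c0, psz (shp c c1 (p c)) < k := by
        rw [← hk]
        refine sum_lt_sum (fun c _ => psz_le (degree_shp_le _ _ _)) ⟨c1, hc1, ?_⟩
        exact psz_lt (degree_shp_lt hp1)
      refine shp_ne_zero (Ne.symm hc10) hne (ih _ hlt (fun c => shp c c1 (p c)) rfl
        ⟨K * ρ + |c1| * K, fun n => ?_⟩)
      have e : ∑ c ∈ T, c ^ n * (shp c c1 (p c)).eval (n : ℝ)
          = (∑ c ∈ T, c ^ (n + 1) * (p c).eval ((n + 1 : ℕ) : ℝ))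
            - c1 * ∑ c ∈ T, c ^ n * (p c).eval (n : ℝ) := by
        rw [mul_sum, ← sum_sub_distrib]
        exact sum_congr rfl fun c _ => (eval_shp c c1 (p c) n).symm
      show |∑ c ∈ T, c ^ n * (shp c c1 (p c)).eval (n : ℝ)| ≤ _
      rw [e]
      refine (abs_sub _ _).trans ?_
      have h1 := hK (n + 1)
      have h2 := mul_le_mul_of_nonneg_left (hK n) (abs_nonneg c1)
      rw [abs_mul]
      calc _ ≤ K * ρ ^ (n + 1) + |c1| * (K * ρ ^ n) := add_le_add h1 h2
        _ = _ := by ring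

/-- **uniqueness of exponential-polynomial expansions** -/
theorem expPoly_unique {ι : Type*} (s : Finset ι) (c : ι → ℝ) (p : ι → ℝ[X]) {ρ : ℝ} (hρ : 0 ≤ ρ)
    (hb : ∃ K : ℝ, ∀ n : ℕ, |∑ i ∈ s, c i ^ n * (p i).eval (n : ℝ)| ≤ K * ρ ^ n)
    {c0 : ℝ} (hc0 : ρ < |c0|) : ∑ i ∈ s.filter (fun i => c i = c0), p i = 0 := by
  classical
  by_cases hmem : c0 ∈ s.image c
  · refine expPoly_unique_aux (s.image c) hρ hmem hc0 _
      (fun x => ∑ i ∈ s.filter (fun i => c i = x), p i) rfl ?_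
    · obtain ⟨K, hK⟩ := hb
      refine ⟨K, fun n => ?_⟩
      have e : ∑ x ∈ s.image c, x ^ n * (∑ i ∈ s.filter (fun i => c i = x), p i).eval (n : ℝ)
          = ∑ i ∈ s, c i ^ n * (p i).eval (n : ℝ) := by
        rw [← sum_fiberwise_of_maps_to (g := c) (fun i hi => mem_image_of_mem c hi)]
        refine sum_congr rfl fun x _ => ?_
        rw [eval_finsetSum, mul_sum]
        exact sum_congr rfl fun i hi => by rw [(mem_filter.1 hi).2]
      show |∑ x ∈ s.image c, x ^ n * (∑ i ∈ s.filter (fun i => c i = x), p i).eval (n : ℝ)| ≤ _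
      rw [e]
      exact hK n
  · have he : s.filter (fun i => c i = c0) = ∅ := by
      rw [filter_eq_empty_iff]
      intro i hi h
      exact hmem (mem_image.2 ⟨i, hi, h⟩)
    rw [he, sum_empty]

/-- **two-parameter extraction** -/
theorem extract_two {ι : Type*} (s : Finset ι) (a b : ι → ℝ) (P Q : ι → ℝ[X]) {ρ : ℝ} (hρ : 0 ≤ ρ)
    (H : ∀ j : ℕ, ∃ K : ℝ, ∀ n : ℕ, |∑ i ∈ s, (a i ^ n * (P i).eval (n : ℝ)) *
      (b i ^ (n + j) * (Q i).eval ((n + j : ℕ) : ℝ))| ≤ K * ρ ^ n)
    {l m : ℝ} (hlm : ρ < |l * m|) :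
    ∑ i ∈ s.filter (fun i => a i = l ∧ b i = m), (P i).eval 0 * (Q i).eval 0 = 0 := by
  classical
  have hm : m ≠ 0 := by
    intro h
    rw [h, mul_zero, abs_zero] at hlm
    exact absurd hlm (not_lt.2 hρ)
  -- first step
  have h1 : ∀ j : ℕ, ∑ i ∈ s.filter (fun i => a i * b i = l * m),
      C (b i ^ j) * P i * taylor (j : ℝ) (Q i) = 0 := by
    intro j
    refine expPoly_unique s (fun i => a i * b i)
      (fun i => C (b i ^ j) * P i * taylor (j : ℝ) (Q i)) hρ ?_ hlm
    obtain ⟨K, hK⟩ := H j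
    refine ⟨K, fun n => ?_⟩
    have e : ∑ i ∈ s, (a i * b i) ^ n * (C (b i ^ j) * P i * taylor (j : ℝ) (Q i)).eval (n : ℝ)
        = ∑ i ∈ s, (a i ^ n * (P i).eval (n : ℝ)) *
          (b i ^ (n + j) * (Q i).eval ((n + j : ℕ) : ℝ)) := by
      refine sum_congr rfl fun i _ => ?_
      rw [eval_mul, eval_mul, eval_C, taylor_eval, Nat.cast_add, pow_add, mul_pow]
      ring
    rw [e]
    exact hK n
  have h2 : ∀ j : ℕ, ∑ i ∈ s.filter (fun i => a i * b i = l * m),
      b i ^ j * (C ((P i).eval 0) * Q i).eval (j : ℝ) = 0 := by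
    intro j
    have := congrArg (eval 0) (h1 j)
    rw [eval_finsetSum, eval_zero] at this
    refine Eq.trans (sum_congr rfl fun i _ => ?_) this
    rw [eval_mul, eval_mul, eval_mul, eval_C, eval_C, taylor_eval, zero_add]
    ring
  -- second step
  have h3 := expPoly_unique (s.filter fun i => a i * b i = l * m) b (fun i => C ((P i).eval 0) * Q i)
    (ρ := |m| / 2) (by positivity) ⟨0, fun j => by rw [h2 j]; simp⟩ (c0 := m) (by
      have := abs_pos.2 hm
      linarith)
  have h4 := congrArg (eval 0) h3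
  rw [eval_finsetSum, eval_zero, filter_filter] at h4
  have h5 : (s.filter fun i => a i = l ∧ b i = m)
      = s.filter fun i => a i * b i = l * m ∧ b i = m := by
    refine filter_congr fun i _ => ⟨fun h => ⟨by rw [h.1, h.2], h.2⟩, fun h => ⟨?_, h.2⟩⟩
    have h6 := h.1
    rw [h.2] at h6
    exact mul_right_cancel₀ hm h6
  rw [h5]
  refine Eq.trans (sum_congr rfl fun i _ => ?_) h4
  rw [eval_mul, eval_C]

end Vale.Agent.P207.N3.H70
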