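import Vale.Agent.P207.N3.H70.Ext
import Vale.Agent.P207.N3.H70.NF2

/-!
# Iterates of weighted polynomials and the two-point principle (helper70)
-/

open Finset Filter Topology Module
open scoped ContDiff Nat

noncomputable section

namespace Vale.Agent.P207.N3.H70

section iter

variable {J : Type} {Ψ : J → MvPolynomial J ℝ} {θ : J → ℝ}

theorem ge_of_wt (hΨ : ∀ j, MvPolynomial.X j ∈ GE (CC Ψ) (θ j)) {l : ℝ} {f : MvPolynomial J ℝ}
    (hf : f ∈ Wt θ l) : f ∈ GE (CC Ψ) l := by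
  refine mem_of_monomials fun α hα => ?_
  have := monomial_ge Ψ (θ := θ) (α := α) (fun j _ => hΨ j) (f.coeff α)
  rwa [mem_Wt.1 hf α hα] at this

/-- **iterates of a weighted polynomial** -/
theorem iter_poly (hΨ : ∀ j, MvPolynomial.X j ∈ GE (CC Ψ) (θ j)) {l : ℝ} (hl : l ≠ 0)
    {f : MvPolynomial J ℝ} (hf : f ∈ Wt θ l) (v : J → ℝ) :
    ∃ P : Polynomial ℝ, P.eval 0 = MvPolynomial.eval v f ∧
      ∀ n : ℕ, MvPolynomial.eval ((pmap Ψ)^[n] v) f = l ^ n * P.eval (n : ℝ) := by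
  obtain ⟨N, hN⟩ := (mem_GE (CC Ψ)).1 (ge_of_wt hΨ hf)
  have hN' : (dl (CC Ψ) l ^ (N + 1)) f = 0 := by
    rw [add_comm, pow_add, Module.End.mul_apply, hN, map_zero]
  set P : Polynomial ℝ := ∑ i ∈ range (N + 1),
    Polynomial.C (l⁻¹ ^ i * MvPolynomial.eval v ((dl (CC Ψ) l ^ i) f) / (i ! : ℝ))
      * descPochhammer ℝ i with hP
  have he : ∀ n : ℕ, P.eval (n : ℝ) = ∑ i ∈ range (N + 1),
      (n.choose i : ℝ) * (l⁻¹ ^ i * MvPolynomial.eval v ((dl (CC Ψ) l ^ i) f)) := by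
    intro n
    rw [hP, Polynomial.eval_finsetSum]
    refine sum_congr rfl fun i _ => ?_
    rw [Polynomial.eval_mul, Polynomial.eval_C, descPochhammer_eval_eq_descFactorial,
      Nat.descFactorial_eq_factorial_mul_choose, Nat.cast_mul]
    have : (i ! : ℝ) ≠ 0 := by exact_mod_cast Nat.factorial_ne_zero i
    field_simp
  refine ⟨P, ?_, fun n => ?_⟩
  · have h0 := he 0
    rw [Nat.cast_zero, sum_range_succ'] at h0
    rw [h0, sum_eq_zero fun i _ => by simp]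
    simp
  · rw [← eval_iter, iter_eq (CC Ψ) hN' n, map_sum, he n, mul_sum]
    refine sum_congr rfl fun i _ => ?_
    rw [MvPolynomial.smul_eval]
    rcases lt_or_ge n i with hn | hn
    · rw [Nat.choose_eq_zero_of_lt hn, Nat.cast_zero, zero_mul, zero_mul, zero_mul, mul_zero]
    · have h1 : l ^ (n - i) = l ^ n * l⁻¹ ^ i := by
        rw [inv_pow, ← div_eq_mul_inv, eq_div_iff (pow_ne_zero i hl), ← pow_add]
        congr 1
        omega
      rw [h1]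
      ring

theorem iter_bound [Fintype J] (hΨ : ∀ j, MvPolynomial.X j ∈ GE (CC Ψ) (θ j)) (h0 : ∀ j, θ j ≠ 0)
    {σ : ℝ} (hσ : ∀ j, |θ j| < σ) (hσ0 : 0 < σ) (hH : ∀ j, Ψ j ∈ Hi J 1) (v : J → ℝ) :
    ∃ C : ℝ, 0 ≤ C ∧ ∀ n : ℕ, ‖(pmap Ψ)^[n] v‖ ≤ C * σ ^ n := by
  obtain ⟨N, c, τ, T, _, hτ, hit⟩ := exists_iter hΨ h0 hσ hσ0 hH
  have hT : 0 ≤ T := (norm_nonneg _).trans (hτ 0)
  set B : ℝ := ∑ j, ∑ i, T * |MvPolynomial.eval v (c j i)| with hB
  have hB0 : 0 ≤ B := sum_nonneg fun j _ => sum_nonneg fun i _ => mul_nonneg hT (abs_nonneg _)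
  refine ⟨B, hB0, fun n => ?_⟩
  rw [pi_norm_le_iff_of_nonneg (by positivity)]
  intro j
  rw [hit, norm_mul, norm_pow, Real.norm_eq_abs, abs_of_pos hσ0, mul_comm]
  refine mul_le_mul_of_nonneg_right ?_ (by positivity)
  refine (norm_sum_le _ _).trans ?_
  have h1 : ∀ i, ‖τ n j i * MvPolynomial.eval v (c j i)‖
      ≤ T * |MvPolynomial.eval v (c j i)| := by
    intro i
    rw [norm_mul, Real.norm_eq_abs (MvPolynomial.eval _ _)]
    exact mul_le_mul_of_nonneg_right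
      (((norm_le_pi_norm _ i).trans (norm_le_pi_norm _ j)).trans (hτ n)) (abs_nonneg _)
  refine (sum_le_sum fun i _ => h1 i).trans ?_
  exact single_le_sum (f := fun j => ∑ i, T * |MvPolynomial.eval v (c j i)|)
    (fun j _ => sum_nonneg fun i _ => mul_nonneg hT (abs_nonneg _)) (mem_univ j)

end iter

section two

variable {J J' : Type} [Fintype J] [Fintype J']

/-- left multiplier of a monomial in two groups of variables -/
def multL (θ : J → ℝ) (γ : (J ⊕ J') →₀ ℕ) : ℝ := ∏ j, θ j ^ γ (Sum.inl j)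

/-- right multiplier of a monomial in two groups of variables -/
def multR (θ' : J' → ℝ) (γ : (J ⊕ J') →₀ ℕ) : ℝ := ∏ j, θ' j ^ γ (Sum.inr j)

/-- the left part of a monomial -/
def gL (γ : (J ⊕ J') →₀ ℕ) : J →₀ ℕ := Finsupp.equivFunOnFinite.symm fun j => γ (Sum.inl j)

/-- the right part of a monomial -/
def gR (γ : (J ⊕ J') →₀ ℕ) : J' →₀ ℕ := Finsupp.equivFunOnFinite.symm fun j => γ (Sum.inr j)

omit [Fintype J'] in
theorem mult_gL (θ : J → ℝ) (γ : (J ⊕ J') →₀ ℕ) : mult θ (gL γ) = multL θ γ := by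
  rw [mult, Finsupp.prod_fintype _ _ fun j => pow_zero _]
  rfl

omit [Fintype J] in
theorem mult_gR (θ' : J' → ℝ) (γ : (J ⊕ J') →₀ ℕ) : mult θ' (gR γ) = multR θ' γ := by
  rw [mult, Finsupp.prod_fintype _ _ fun j => pow_zero _]
  rfl

theorem eval_monomial_one {J : Type} [Fintype J] (v : J → ℝ) (α : J →₀ ℕ) :
    MvPolynomial.eval v (MvPolynomial.monomial α (1 : ℝ)) = ∏ j, v j ^ α j := by
  rw [MvPolynomial.eval_monomial, one_mul, Finsupp.prod_fintype _ _ fun j => pow_zero _]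

theorem eval_sum_elim (v : J → ℝ) (v' : J' → ℝ) (p : MvPolynomial (J ⊕ J') ℝ) :
    MvPolynomial.eval (Sum.elim v v') p
      = ∑ γ ∈ p.support, p.coeff γ * (multL v γ * multR v' γ) := by
  rw [MvPolynomial.eval_eq']
  refine sum_congr rfl fun γ _ => ?_
  rw [Fintype.prod_sum_type]
  rfl

/-- **THE TWO-POINT PRINCIPLE.** If a polynomial `p` in two groups of variables is small along the
pairs `(ψ ^ n v, ψ' ^ (n + j) v')`, then its components of bi-multiplier `(l, m)`, `|l m| > ρ`,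
vanish at `(v, v')`. -/
theorem principle {θ : J → ℝ} {θ' : J' → ℝ} {Ψ : J → MvPolynomial J ℝ}
    {Ψ' : J' → MvPolynomial J' ℝ} (h0 : ∀ j, θ j ≠ 0) (h0' : ∀ j, θ' j ≠ 0)
    (hΨ : ∀ j, MvPolynomial.X j ∈ GE (CC Ψ) (θ j))
    (hΨ' : ∀ j, MvPolynomial.X j ∈ GE (CC Ψ') (θ' j))
    (p : MvPolynomial (J ⊕ J') ℝ) (v : J → ℝ) (v' : J' → ℝ) {ρ : ℝ} (hρ : 0 ≤ ρ)
    (H : ∀ j : ℕ, ∃ K : ℝ, ∀ n : ℕ, |MvPolynomial.eval (Sum.elim ((pmap Ψ)^[n] v)
      ((pmap Ψ')^[n + j] v')) p| ≤ K * ρ ^ n) {l m : ℝ} (hlm : ρ < |l * m|) :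
    ∑ γ ∈ p.support.filter (fun γ => multL θ γ = l ∧ multR θ' γ = m),
      p.coeff γ * (multL v γ * multR v' γ) = 0 := by
  have hmo : ∀ {J : Type} [Fintype J] (θ : J → ℝ) (α : J →₀ ℕ),
      (MvPolynomial.monomial α (1 : ℝ)) ∈ Wt θ (mult θ α) := by
    intro J _ θ α
    rw [mem_Wt]
    intro β hβ
    have := MvPolynomial.support_monomial_subset hβ
    rw [mem_singleton] at this
    rw [this]
  have hne : ∀ {J : Type} (θ : J → ℝ) (_ : ∀ j, θ j ≠ 0) (α : J →₀ ℕ), mult θ α ≠ 0 :=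
    fun θ hθ α => prod_ne_zero_iff.2 fun j _ => pow_ne_zero _ (hθ j)
  choose P hP0 hP using fun γ : (J ⊕ J') →₀ ℕ =>
    iter_poly hΨ (hne θ h0 (gL γ)) (hmo θ (gL γ)) v
  choose Q hQ0 hQ using fun γ : (J ⊕ J') →₀ ℕ =>
    iter_poly hΨ' (hne θ' h0' (gR γ)) (hmo θ' (gR γ)) v'
  have h1 := extract_two p.support (multL θ) (multR θ')
    (fun γ => Polynomial.C (p.coeff γ) * P γ) Q hρ (fun j => ?_) hlm
  · refine Eq.trans (sum_congr rfl fun γ _ => ?_) h1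
    rw [Polynomial.eval_mul, Polynomial.eval_C, hP0, hQ0, eval_monomial_one, eval_monomial_one]
    simp only [multL, multR, gL, gR, Finsupp.coe_equivFunOnFinite_symm]
    ring
  · obtain ⟨K, hK⟩ := H j
    refine ⟨K, fun n => ?_⟩
    refine le_trans (le_of_eq ?_) (hK n)
    rw [eval_sum_elim]
    congr 1
    refine sum_congr rfl fun γ _ => ?_
    have h2 := hP γ n
    have h3 := hQ γ (n + j)
    rw [eval_monomial_one] at h2 h3
    have h4 : multL ((pmap Ψ)^[n] v) γ = multL θ γ ^ n * (P γ).eval (n : ℝ) := by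
      rw [mult_gL θ γ] at h2
      rw [← h2, ← mult_gL, mult, Finsupp.prod_fintype _ _ fun j => pow_zero _]
    have h5 : multR ((pmap Ψ')^[n + j] v') γ
        = multR θ' γ ^ (n + j) * (Q γ).eval ((n + j : ℕ) : ℝ) := by
      rw [mult_gR θ' γ] at h3
      rw [← h3, ← mult_gR, mult, Finsupp.prod_fintype _ _ fun j => pow_zero _]
    rw [h4, h5, Polynomial.eval_mul, Polynomial.eval_C]
    ring

/-- the principle with an eventual bound -/
theorem principle_ev {θ : J → ℝ} {θ' : J' → ℝ} {Ψ : J → MvPolynomial J ℝ}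
    {Ψ' : J' → MvPolynomial J' ℝ} (h0 : ∀ j, θ j ≠ 0) (h0' : ∀ j, θ' j ≠ 0)
    (hΨ : ∀ j, MvPolynomial.X j ∈ GE (CC Ψ) (θ j))
    (hΨ' : ∀ j, MvPolynomial.X j ∈ GE (CC Ψ') (θ' j))
    (p : MvPolynomial (J ⊕ J') ℝ) (v : J → ℝ) (v' : J' → ℝ) {ρ : ℝ} (hρ : 0 < ρ)
    (H : ∀ j : ℕ, ∃ K : ℝ, ∀ᶠ n : ℕ in atTop, |MvPolynomial.eval (Sum.elim ((pmap Ψ)^[n] v)
      ((pmap Ψ')^[n + j] v')) p| ≤ K * ρ ^ n) {l m : ℝ} (hlm : ρ < |l * m|) :
    ∑ γ ∈ p.support.filter (fun γ => multL θ γ = l ∧ multR θ' γ = m),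
      p.coeff γ * (multL v γ * multR v' γ) = 0 := by
  refine principle h0 h0' hΨ hΨ' p v v' hρ.le (fun j => ?_) hlm
  obtain ⟨K, hK⟩ := H j
  have h1 : (fun n : ℕ => MvPolynomial.eval (Sum.elim ((pmap Ψ)^[n] v)
      ((pmap Ψ')^[n + j] v')) p) =O[atTop] fun n : ℕ => ρ ^ n := by
    refine Asymptotics.IsBigO.of_bound K ?_
    filter_upwards [hK] with n hn
    rw [Real.norm_eq_abs, Real.norm_eq_abs, abs_of_pos (pow_pos hρ n)]
    exact hn
  obtain ⟨C, _, hC⟩ := Asymptotics.bound_of_isBigO_nat_atTop h1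
  refine ⟨C, fun n => ?_⟩
  have := hC (x := n) (pow_pos hρ n).ne'
  rwa [Real.norm_eq_abs, Real.norm_eq_abs, abs_of_pos (pow_pos hρ n)] at this

/-- the principle for a function with Taylor polynomial `p` -/
theorem principle_smooth {θ : J → ℝ} {θ' : J' → ℝ} {Ψ : J → MvPolynomial J ℝ}
    {Ψ' : J' → MvPolynomial J' ℝ} (h0 : ∀ j, θ j ≠ 0) (h0' : ∀ j, θ' j ≠ 0)
    (hΨ : ∀ j, MvPolynomial.X j ∈ GE (CC Ψ) (θ j))
    (hΨ' : ∀ j, MvPolynomial.X j ∈ GE (CC Ψ') (θ' j))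
    (hH : ∀ j, Ψ j ∈ Hi J 1) (hH' : ∀ j, Ψ' j ∈ Hi J' 1)
    {σ : ℝ} (hσ0 : 0 < σ) (hσ1 : σ < 1) (hσ : ∀ j, |θ j| < σ) (hσ' : ∀ j, |θ' j| < σ)
    {F : (J ⊕ J' → ℝ) → ℝ} {p : MvPolynomial (J ⊕ J') ℝ} {K : ℕ} {ε C0 : ℝ} (hε : 0 < ε)
    (hF : ∀ w : J ⊕ J' → ℝ, ‖w‖ < ε → |F w - MvPolynomial.eval w p| ≤ C0 * ‖w‖ ^ K)
    (v : J → ℝ) (v' : J' → ℝ) {ρ : ℝ} (hρ : 0 < ρ) (hK : σ ^ K ≤ ρ)
    (H : ∀ j : ℕ, ∃ M : ℝ, ∀ᶠ n : ℕ in atTop, |F (Sum.elim ((pmap Ψ)^[n] v)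
      ((pmap Ψ')^[n + j] v'))| ≤ M * ρ ^ n) {l m : ℝ} (hlm : ρ < |l * m|) :
    ∑ γ ∈ p.support.filter (fun γ => multL θ γ = l ∧ multR θ' γ = m),
      p.coeff γ * (multL v γ * multR v' γ) = 0 := by
  obtain ⟨B, hB0, hB⟩ := iter_bound hΨ h0 hσ hσ0 hH v
  obtain ⟨B', hB0', hB'⟩ := iter_bound hΨ' h0' hσ' hσ0 hH' v'
  refine principle_ev h0 h0' hΨ hΨ' p v v' hρ (fun j => ?_) hlm
  obtain ⟨M, hM⟩ := H j
  have hw : ∀ n : ℕ, ‖(Sum.elim ((pmap Ψ)^[n] v) ((pmap Ψ')^[n + j] v') : J ⊕ J' → ℝ)‖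
      ≤ (B + B') * σ ^ n := by
    intro n
    rw [pi_norm_le_iff_of_nonneg (by positivity)]
    rintro (i | i)
    · rw [Sum.elim_inl]
      refine (norm_le_pi_norm _ i).trans ((hB n).trans ?_)
      rw [add_mul]
      have : 0 ≤ B' * σ ^ n := by positivity
      linarith
    · rw [Sum.elim_inr]
      refine (norm_le_pi_norm _ i).trans ((hB' (n + j)).trans ?_)
      have h1 : σ ^ (n + j) ≤ σ ^ n := pow_le_pow_of_le_one hσ0.le hσ1.le (Nat.le_add_right n j)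
      have h2 : B' * σ ^ (n + j) ≤ B' * σ ^ n := mul_le_mul_of_nonneg_left h1 hB0'
      rw [add_mul]
      have : 0 ≤ B * σ ^ n := by positivity
      linarith
  have hε' : ∀ᶠ n : ℕ in atTop, (B + B') * σ ^ n < ε := by
    have h1 := (tendsto_pow_atTop_nhds_zero_of_lt_one hσ0.le hσ1).const_mul (B + B')
    rw [mul_zero] at h1
    exact h1.eventually_lt_const hε
  refine ⟨M + |C0| * (B + B') ^ K, ?_⟩
  filter_upwards [hM, hε'] with n h1 h2
  set w : J ⊕ J' → ℝ := Sum.elim ((pmap Ψ)^[n] v) ((pmap Ψ')^[n + j] v') with hwd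
  have h3 := hF w ((hw n).trans_lt h2)
  have h4 : |MvPolynomial.eval w p| ≤ |F w| + |F w - MvPolynomial.eval w p| := by
    have : MvPolynomial.eval w p = F w - (F w - MvPolynomial.eval w p) := by ring
    calc |MvPolynomial.eval w p| = |F w - (F w - MvPolynomial.eval w p)| := by rw [← this]
      _ ≤ _ := abs_sub _ _
  have h5 : C0 * ‖w‖ ^ K ≤ |C0| * (B + B') ^ K * ρ ^ n := by
    calc C0 * ‖w‖ ^ K ≤ |C0| * ((B + B') * σ ^ n) ^ K := by
          refine mul_le_mul (le_abs_self _) (pow_le_pow_left₀ (norm_nonneg _) (hw n) K)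
            (by positivity) (abs_nonneg _)
      _ = |C0| * (B + B') ^ K * (σ ^ K) ^ n := by
          rw [mul_pow (B + B'), ← pow_mul, ← pow_mul, mul_comm n K, mul_assoc]
      _ ≤ |C0| * (B + B') ^ K * ρ ^ n := by
          refine mul_le_mul_of_nonneg_left (pow_le_pow_left₀ (by positivity) hK n) (by positivity)
  rw [add_mul]
  exact h4.trans (add_le_add h1 (h3.trans h5))

end two

end Vale.Agent.P207.N3.H70
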