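import Vale.Agent.P207.N3.H70.Defs

/-!
# Hadamard's lemma in several variables, flat functions, Taylor polynomials (helper70)
-/

open Set Filter Topology MeasureTheory Metric
open scoped ContDiff

noncomputable section

namespace Vale.Agent.P207.N3.H70

/-- smoothness of integrals over `[0, 1]` depending on a parameter -/
theorem contDiff_integral_unit {E : Type*} [NormedAddCommGroup E] [NormedSpace ℝ E]
    {g : E × ℝ → ℝ} (hg : ContDiff ℝ ∞ g) :
    ContDiff ℝ ∞ fun e => ∫ r in (0 : ℝ)..1, g (e, r) := by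
  set χ : ContDiffBump (0 : ℝ) := ⟨1, 2, by norm_num, by norm_num⟩ with hχ
  have hf : LocallyIntegrable (indicator (Ioc (-1 : ℝ) 0) fun _ => (1 : ℝ)) volume := by
    refine Integrable.locallyIntegrable ?_
    rw [integrable_indicator_iff measurableSet_Ioc]
    exact integrableOn_const (by simp)
  have h := contDiffOn_convolution_right_with_param_comp (𝕜 := ℝ) (μ := volume) (n := (⊤ : ℕ∞))
    (ContinuousLinearMap.mul ℝ ℝ) (s := (univ : Set E)) (v := fun _ => (0 : ℝ))
    contDiffOn_const (f := indicator (Ioc (-1 : ℝ) 0) fun _ => (1 : ℝ))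
    (g := fun e u => χ u * g (e, u)) (k := Metric.closedBall 0 2) isOpen_univ
    (isCompact_closedBall _ _) ?_ hf ?_
  · rw [contDiffOn_univ] at h
    have e : (fun e => ∫ r in (0 : ℝ)..1, g (e, r)) = fun e =>
        MeasureTheory.convolution (indicator (Ioc (-1 : ℝ) 0) fun _ => (1 : ℝ))
          (fun u => χ u * g (e, u)) (ContinuousLinearMap.mul ℝ ℝ) volume 0 := by
      funext e
      unfold MeasureTheory.convolution
      have h1 : ∀ t : ℝ, (ContinuousLinearMap.mul ℝ ℝ)
          ((indicator (Ioc (-1 : ℝ) 0) fun _ => (1 : ℝ)) t) (χ (0 - t) * g (e, 0 - t)) =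
          indicator (Ioc (-1 : ℝ) 0) (fun t => g (e, -t)) t := by
        intro t
        by_cases ht : t ∈ Ioc (-1 : ℝ) 0
        · have h2 : χ (-t) = 1 := χ.one_of_mem_closedBall (by
            rw [mem_closedBall_zero_iff, norm_neg, Real.norm_eq_abs, abs_le]
            exact ⟨ht.1.le, by linarith [ht.2]⟩)
          rw [indicator_of_mem ht, indicator_of_mem ht, zero_sub, h2]
          simp
        · rw [indicator_of_notMem ht, indicator_of_notMem ht]
          simp
      simp only [h1]
      rw [integral_indicator measurableSet_Ioc, ← intervalIntegral.integral_of_le (by norm_num)]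
      rw [intervalIntegral.integral_comp_neg (fun r => g (e, r))]
      simp
    rw [e]
    exact h
  · intro e u _ hu
    have : χ u = 0 := by
      refine χ.zero_of_le_dist ?_
      rw [Metric.mem_closedBall, not_le] at hu
      exact hu.le
    rw [this, zero_mul]
  · rw [univ_prod_univ, contDiffOn_univ]
    exact (χ.contDiff.comp contDiff_snd).mul hg

variable {J : Type} [Fintype J]

/-- Hadamard's lemma -/
theorem hadamard [DecidableEq J] {h : (J → ℝ) → ℝ} (hh : ContDiff ℝ ∞ h) :
    ∃ g : J → (J → ℝ) → ℝ, (∀ j, ContDiff ℝ ∞ (g j)) ∧ ∀ v, h v = h 0 + ∑ j, v j * g j v := by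
  have hd : ContDiff ℝ ∞ fun z : (J → ℝ) × ℝ => fderiv ℝ h (z.2 • z.1) := by
    have h1 : ContDiff ℝ ∞ (fderiv ℝ h) := hh.fderiv_right (m := ∞) (by simp)
    exact h1.comp (contDiff_snd.smul contDiff_fst)
  refine ⟨fun j v => ∫ r in (0 : ℝ)..1, fderiv ℝ h (r • v) (Pi.single j 1), fun j => ?_,
    fun v => ?_⟩
  · exact contDiff_integral_unit (g := fun z : (J → ℝ) × ℝ =>
      fderiv ℝ h (z.2 • z.1) (Pi.single j 1)) (hd.clm_apply contDiff_const)
  · have h1 : ∀ r : ℝ, HasDerivAt (fun r : ℝ => h (r • v)) (fderiv ℝ h (r • v) v) r := by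
      intro r
      have h2 : HasFDerivAt h (fderiv ℝ h (r • v)) (r • v) :=
        (hh.differentiable (by simp) (r • v)).hasFDerivAt
      have h3 : HasDerivAt (fun r : ℝ => r • v) v r := by
        simpa using (hasDerivAt_id r).smul_const v
      exact h2.comp_hasDerivAt r h3
    have hc : Continuous fun r : ℝ => fderiv ℝ h (r • v) :=
      hd.continuous.comp (by fun_prop : Continuous fun r : ℝ => (v, r))
    have h4 : ∫ r in (0 : ℝ)..1, fderiv ℝ h (r • v) v = h v - h 0 := by
      have := intervalIntegral.integral_eq_sub_of_hasDerivAt (a := (0 : ℝ)) (b := 1)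
        (fun r _ => h1 r) ((hc.clm_apply continuous_const).intervalIntegrable _ _)
      simpa using this
    have h5 : ∀ r : ℝ, fderiv ℝ h (r • v) v
        = ∑ j, v j * fderiv ℝ h (r • v) (Pi.single j 1) := by
      intro r
      have e1 : v = ∑ j, v j • (Pi.single j (1 : ℝ) : J → ℝ) := by
        funext i
        rw [Finset.sum_apply]
        simp [Pi.single_apply]
      have e2 := congrArg (fderiv ℝ h (r • v)) e1
      rw [map_sum] at e2
      rw [e2]
      exact Finset.sum_congr rfl fun j _ => by rw [map_smul, smul_eq_mul]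
    have h6 : ∫ r in (0 : ℝ)..1, fderiv ℝ h (r • v) v
        = ∑ j, v j * ∫ r in (0 : ℝ)..1, fderiv ℝ h (r • v) (Pi.single j 1) := by
      simp_rw [h5]
      rw [intervalIntegral.integral_finsetSum]
      · exact Finset.sum_congr rfl fun j _ => intervalIntegral.integral_const_mul _ _
      · intro j _
        exact ((hc.clm_apply continuous_const).const_mul (v j)).intervalIntegrable _ _
    rw [← h6, h4]
    ring

namespace IsFlat

theorem zero_order {f : (J → ℝ) → ℝ} (hf : ContDiff ℝ ∞ f) : IsFlat 0 f :=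
  ⟨hf, fun z => f (z.1 • z.2), hf.comp (contDiff_fst.smul contDiff_snd), fun s v => by simp⟩

theorem congr {K : ℕ} {f g : (J → ℝ) → ℝ} (hf : IsFlat K f) (h : ∀ v, g v = f v) :
    IsFlat K g := by
  have : g = f := funext h
  rwa [this]

theorem zero (K : ℕ) : IsFlat K (fun _ : J → ℝ => (0 : ℝ)) :=
  ⟨contDiff_const, fun _ => 0, contDiff_const, fun _ _ => by simp⟩

theorem add {K : ℕ} {f g : (J → ℝ) → ℝ} (hf : IsFlat K f) (hg : IsFlat K g) :
    IsFlat K fun v => f v + g v := by
  obtain ⟨h1, a, ha, h2⟩ := hf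
  obtain ⟨h3, b, hb, h4⟩ := hg
  refine ⟨h1.add h3, fun z => a z + b z, ha.add hb, fun s v => ?_⟩
  show f (s • v) + g (s • v) = s ^ K * (a (s, v) + b (s, v))
  rw [h2, h4]
  ring

theorem neg {K : ℕ} {f : (J → ℝ) → ℝ} (hf : IsFlat K f) : IsFlat K fun v => -f v := by
  obtain ⟨h1, a, ha, h2⟩ := hf
  refine ⟨h1.neg, fun z => -a z, ha.neg, fun s v => ?_⟩
  show -f (s • v) = s ^ K * -a (s, v)
  rw [h2]
  ring

theorem sub {K : ℕ} {f g : (J → ℝ) → ℝ} (hf : IsFlat K f) (hg : IsFlat K g) :
    IsFlat K fun v => f v - g v := by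
  have := hf.add hg.neg
  exact this.congr fun v => sub_eq_add_neg _ _

theorem mul {K L : ℕ} {f g : (J → ℝ) → ℝ} (hf : IsFlat K f) (hg : IsFlat L g) :
    IsFlat (K + L) fun v => f v * g v := by
  obtain ⟨h1, a, ha, h2⟩ := hf
  obtain ⟨h3, b, hb, h4⟩ := hg
  refine ⟨h1.mul h3, fun z => a z * b z, ha.mul hb, fun s v => ?_⟩
  show f (s • v) * g (s • v) = s ^ (K + L) * (a (s, v) * b (s, v))
  rw [h2, h4]
  ring

theorem mono {K L : ℕ} (hKL : K ≤ L) {f : (J → ℝ) → ℝ} (hf : IsFlat L f) : IsFlat K f := by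
  obtain ⟨h1, a, ha, h2⟩ := hf
  refine ⟨h1, fun z => z.1 ^ (L - K) * a z, (contDiff_fst.pow _).mul ha, fun s v => ?_⟩
  rw [h2, ← mul_assoc, ← pow_add]
  congr 2
  omega

theorem sum {ι : Type*} {K : ℕ} (s : Finset ι) {f : ι → (J → ℝ) → ℝ}
    (hf : ∀ i ∈ s, IsFlat K (f i)) : IsFlat K fun v => ∑ i ∈ s, f i v := by
  classical
  induction s using Finset.induction_on with
  | empty => exact (zero K).congr fun v => by simp
  | insert a s ha ih =>
    have h1 := hf a (Finset.mem_insert_self a s)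
    have h2 := ih fun i hi => hf i (Finset.mem_insert_of_mem hi)
    exact (h1.add h2).congr fun v => by rw [Finset.sum_insert ha]

theorem mul_left {K : ℕ} {f g : (J → ℝ) → ℝ} (hg : ContDiff ℝ ∞ g) (hf : IsFlat K f) :
    IsFlat K fun v => g v * f v := by
  have := (zero_order hg).mul hf
  rwa [zero_add] at this

theorem const_mul {K : ℕ} {f : (J → ℝ) → ℝ} (c : ℝ) (hf : IsFlat K f) :
    IsFlat K fun v => c * f v :=
  mul_left contDiff_const hf

theorem coord (j : J) : IsFlat 1 fun v : J → ℝ => v j :=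
  ⟨contDiff_apply ℝ ℝ j, fun z => z.2 j, (contDiff_apply ℝ ℝ j).comp contDiff_snd,
    fun s v => by simp⟩

theorem pow {K : ℕ} {f : (J → ℝ) → ℝ} (hf : IsFlat K f) (n : ℕ) :
    IsFlat (n * K) fun v => f v ^ n := by
  induction n with
  | zero => exact (zero_order contDiff_const (f := fun _ => (1 : ℝ))).congr (by simp) |>.mono (by simp)
  | succ n ih =>
    have := ih.mul hf
    rw [show n * K + K = (n + 1) * K by ring] at this
    exact this.congr fun v => pow_succ _ _

theorem at_zero {K : ℕ} {f : (J → ℝ) → ℝ} (hK : 1 ≤ K) (hf : IsFlat K f) : f 0 = 0 := by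
  obtain ⟨_, g, _, h⟩ := hf
  have := h 0 0
  rw [smul_zero, zero_pow (by omega), zero_mul] at this
  exact this

/-- composition -/
theorem comp {J' : Type} [Fintype J'] {K : ℕ} {f : (J → ℝ) → ℝ} (hf : IsFlat K f)
    {w : (J' → ℝ) → J → ℝ} (hw : ∀ j, IsFlat 1 fun v => w v j) : IsFlat K fun v => f (w v) := by
  obtain ⟨h1, g, hg, h2⟩ := hf
  choose h3 W hW h4 using hw
  refine ⟨h1.comp (contDiff_pi.2 h3), fun z => g (z.1, fun j => W j z),
    hg.comp (contDiff_fst.prodMk (contDiff_pi.2 hW)), fun s v => ?_⟩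
  have h5 : w (s • v) = s • fun j => W j (s, v) := by
    funext j
    have := h4 j s v
    rw [pow_one] at this
    exact this
  show f (w (s • v)) = _
  rw [h5, h2]

/-- the bound -/
theorem bound {K : ℕ} {f : (J → ℝ) → ℝ} (hf : IsFlat K f) (ρ : ℝ) :
    ∃ C : ℝ, 0 ≤ C ∧ ∀ v : J → ℝ, ‖v‖ ≤ ρ → |f v| ≤ C * ‖v‖ ^ K := by
  obtain ⟨h1, g, hg, h2⟩ := hf
  have hc : IsCompact ((Icc (0 : ℝ) ρ) ×ˢ (closedBall (0 : J → ℝ) 1)) :=
    isCompact_Icc.prod (isCompact_closedBall _ _)
  obtain ⟨C, hC⟩ := hc.exists_bound_of_continuousOn hg.continuous.continuousOn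
  have key : ∀ v : J → ℝ, ‖v‖ ≤ ρ → |f v| ≤ max C 0 * ‖v‖ ^ K := by
    intro v hv
    have e : v = ‖v‖ • (‖v‖⁻¹ • v) := by
      by_cases h0 : v = 0
      · simp [h0]
      · rw [smul_smul, mul_inv_cancel₀ (norm_ne_zero_iff.2 h0), one_smul]
    have hn : ‖‖v‖⁻¹ • v‖ ≤ 1 := by
      rw [norm_smul, norm_inv, norm_norm]
      by_cases h0 : ‖v‖ = 0
      · simp [h0]
      · rw [inv_mul_cancel₀ h0]
    have h3 := h2 ‖v‖ (‖v‖⁻¹ • v)
    rw [← e] at h3
    rw [h3, abs_mul, abs_pow, abs_norm, mul_comm]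
    refine mul_le_mul_of_nonneg_right ?_ (by positivity)
    have := hC (‖v‖, ‖v‖⁻¹ • v) ⟨⟨norm_nonneg v, hv⟩, mem_closedBall_zero_iff.2 hn⟩
    rw [Real.norm_eq_abs] at this
    exact this.trans (le_max_left _ _)
  exact ⟨max C 0, le_max_right _ _, key⟩

end IsFlat

theorem isFlat_one [DecidableEq J] {h : (J → ℝ) → ℝ} (hh : ContDiff ℝ ∞ h) (h0 : h 0 = 0) :
    IsFlat 1 h := by
  obtain ⟨g, hg, h1⟩ := hadamard hh
  have : IsFlat 1 fun v => ∑ j, v j * g j v := by
    refine IsFlat.sum _ fun j _ => ?_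
    have := (IsFlat.coord j).mul (IsFlat.zero_order (hg j))
    exact this
  refine this.congr fun v => ?_
  rw [h1 v, h0, zero_add]

open MvPolynomial in
theorem contDiff_eval (p : MvPolynomial J ℝ) : ContDiff ℝ ∞ fun v : J → ℝ => eval v p := by
  induction p using MvPolynomial.induction_on with
  | C a => simpa using contDiff_const
  | add p q hp hq => simpa using hp.add hq
  | mul_X p j hp => simpa using hp.mul (contDiff_apply ℝ ℝ j)

open MvPolynomial in
/-- a polynomial with all monomials of degree at least `K` is flat of order `K` -/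
theorem isFlat_eval {K : ℕ} (p : MvPolynomial J ℝ) (hp : ∀ α ∈ p.support, K ≤ α.degree) :
    IsFlat K fun v : J → ℝ => eval v p := by
  have h1 : ∀ α : J →₀ ℕ, IsFlat α.degree fun v : J → ℝ => α.prod fun j k => v j ^ k := by
    intro α
    refine ⟨?_, fun z => α.prod fun j k => z.2 j ^ k, ?_, fun s v => ?_⟩
    · exact contDiff_prod fun j _ => (contDiff_apply ℝ ℝ j).pow _
    · exact contDiff_prod fun j _ => ((contDiff_apply ℝ ℝ j).comp contDiff_snd).pow _
    · simp only [Finsupp.prod, Pi.smul_apply, smul_eq_mul, mul_pow, Finset.prod_mul_distrib,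
        Finset.prod_pow_eq_pow_sum, Finsupp.degree_apply]
  have h2 : IsFlat K fun v : J → ℝ => ∑ α ∈ p.support, p.coeff α * α.prod fun j k => v j ^ k :=
    IsFlat.sum _ fun α hα => ((h1 α).mono (hp α hα)).const_mul _
  refine h2.congr fun v => ?_
  rw [eval_eq]
  exact Finset.sum_congr rfl fun α _ => by rfl

open MvPolynomial in
/-- Taylor polynomials -/
theorem exists_poly [DecidableEq J] (K : ℕ) {h : (J → ℝ) → ℝ} (hh : ContDiff ℝ ∞ h) :
    ∃ p : MvPolynomial J ℝ, (∀ α ∈ p.support, α.degree < K) ∧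
      IsFlat K fun v => h v - eval v p := by
  induction K generalizing h with
  | zero => exact ⟨0, by simp, (IsFlat.zero_order hh).congr fun v => by simp⟩
  | succ K ih =>
    obtain ⟨g, hg, h1⟩ := hadamard hh
    choose p hp hf using fun j => ih (hg j)
    refine ⟨C (h 0) + ∑ j, X j * p j, ?_, ?_⟩
    · intro α hα
      have h2 := support_add hα
      rw [Finset.mem_union] at h2
      rcases h2 with h2 | h2
      · have : α = 0 := by
          by_contra hne
          rw [mem_support_iff, coeff_C, if_neg (Ne.symm hne)] at h2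
          exact h2 rfl
        rw [this]
        simp
      · obtain ⟨j, _, h3⟩ := Finset.mem_biUnion.1 (support_sum h2)
        rw [mul_comm, support_mul_X, Finset.mem_map] at h3
        obtain ⟨β, hβ, rfl⟩ := h3
        have := hp j β hβ
        simp only [addRightEmbedding_apply, map_add, Finsupp.degree_single]
        omega
    · have h2 : IsFlat (K + 1) fun v => ∑ j, v j * (g j v - eval v (p j)) := by
        refine IsFlat.sum _ fun j _ => ?_
        have := (IsFlat.coord j).mul (hf j)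
        rwa [add_comm 1 K] at this
      refine h2.congr fun v => ?_
      rw [h1 v]
      simp only [map_add, eval_C, map_sum, map_mul, eval_X, mul_sub, Finset.sum_sub_distrib]
      ring

/-- a polynomial of degree `< K` which is `O(s ^ K)` at `0+` vanishes -/
theorem poly_eq_zero_of_bound (K : ℕ) (q : Polynomial ℝ) (hq : ∀ n, K ≤ n → q.coeff n = 0)
    {C δ : ℝ} (hδ : 0 < δ) (hb : ∀ s : ℝ, 0 < s → s < δ → |q.eval s| ≤ C * s ^ K) : q = 0 := by
  induction K generalizing q with
  | zero =>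
    ext n
    rw [hq n (Nat.zero_le n), Polynomial.coeff_zero]
  | succ K ih =>
    have h0 : q.eval 0 = 0 := by
      have h1 : Tendsto (fun s : ℝ => |q.eval s|) (𝓝[>] 0) (𝓝 |q.eval 0|) :=
        (q.continuous.abs.tendsto 0).mono_left nhdsWithin_le_nhds
      have h2 : Tendsto (fun s : ℝ => C * s ^ (K + 1)) (𝓝[>] 0) (𝓝 0) := by
        have : Tendsto (fun s : ℝ => C * s ^ (K + 1)) (𝓝 0) (𝓝 (C * 0 ^ (K + 1))) :=
          (Continuous.tendsto (by fun_prop) 0)
        rw [zero_pow (Nat.succ_ne_zero K), mul_zero] at this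
        exact this.mono_left nhdsWithin_le_nhds
      have h3 : ∀ᶠ s in 𝓝[>] (0 : ℝ), |q.eval s| ≤ C * s ^ (K + 1) := by
        filter_upwards [Ioo_mem_nhdsGT hδ] with s hs
        exact hb s hs.1 hs.2
      have h4 := le_of_tendsto_of_tendsto h1 h2 h3
      exact abs_eq_zero.1 (le_antisymm h4 (abs_nonneg _))
    have h1 : Polynomial.X ∣ q := by
      rw [Polynomial.X_dvd_iff, Polynomial.coeff_zero_eq_eval_zero, h0]
    obtain ⟨r, rfl⟩ := h1
    have h2 : r = 0 := by
      refine ih r (fun n hn => ?_) fun s hs hs' => ?_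
      · have := hq (n + 1) (by omega)
        rwa [Polynomial.coeff_X_mul] at this
      · have := hb s hs hs'
        rw [Polynomial.eval_mul, Polynomial.eval_X, abs_mul, abs_of_pos hs, pow_succ] at this
        have h3 : s * |r.eval s| ≤ s * (C * s ^ K) := by
          refine this.trans (le_of_eq (by ring))
        exact le_of_mul_le_mul_left h3 hs
    rw [h2, mul_zero]

open MvPolynomial in
/-- a polynomial of degree `< K` which is `O(|v| ^ K)` at `0` vanishes -/
theorem mvPoly_eq_zero_of_bound {K : ℕ} (p : MvPolynomial J ℝ)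
    (hp : ∀ α ∈ p.support, α.degree < K) {C ρ : ℝ} (hρ : 0 < ρ)
    (hb : ∀ v : J → ℝ, ‖v‖ < ρ → |eval v p| ≤ C * ‖v‖ ^ K) : p = 0 := by
  refine MvPolynomial.funext fun w => ?_
  rw [map_zero]
  set q : Polynomial ℝ := ∑ α ∈ p.support,
    Polynomial.C (p.coeff α * α.prod fun j k => w j ^ k) * Polynomial.X ^ α.degree with hqd
  have he : ∀ s : ℝ, q.eval s = eval (s • w) p := by
    intro s
    rw [hqd, Polynomial.eval_finsetSum, eval_eq]
    refine Finset.sum_congr rfl fun α _ => ?_
    simp only [Polynomial.eval_mul, Polynomial.eval_C, Polynomial.eval_pow, Polynomial.eval_X,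
      Pi.smul_apply, smul_eq_mul, mul_pow, Finset.prod_mul_distrib, Finset.prod_pow_eq_pow_sum,
      Finsupp.degree_apply, Finsupp.prod]
    ring
  have hq0 : q = 0 := by
    refine poly_eq_zero_of_bound K q (fun n hn => ?_) (C := C * ‖w‖ ^ K)
      (δ := ρ / (‖w‖ + 1)) (by positivity) fun s hs hs' => ?_
    · rw [hqd, Polynomial.finsetSum_coeff]
      refine Finset.sum_eq_zero fun α hα => ?_
      rw [Polynomial.coeff_C_mul, Polynomial.coeff_X_pow, if_neg, mul_zero]
      have := hp α hα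
      omega
    · rw [he s]
      have h1 : ‖s • w‖ = s * ‖w‖ := by rw [norm_smul, Real.norm_eq_abs, abs_of_pos hs]
      have h2 : ‖s • w‖ < ρ := by
        rw [h1]
        rw [lt_div_iff₀ (by positivity)] at hs'
        nlinarith [norm_nonneg w]
      refine (hb _ h2).trans (le_of_eq ?_)
      rw [h1, mul_pow]
      ring
  have := he 1
  rw [hq0, Polynomial.eval_zero, one_smul] at this
  exact this.symm

theorem isFlat_of_bound [DecidableEq J] {K : ℕ} {h : (J → ℝ) → ℝ} (hh : ContDiff ℝ ∞ h)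
    {C ρ : ℝ} (hρ : 0 < ρ) (hb : ∀ v : J → ℝ, ‖v‖ < ρ → |h v| ≤ C * ‖v‖ ^ K) : IsFlat K h := by
  obtain ⟨p, hp, hf⟩ := exists_poly K hh
  obtain ⟨C', hC', hb'⟩ := hf.bound ρ
  have h0 : p = 0 := by
    refine mvPoly_eq_zero_of_bound p hp hρ (C := C + C') fun v hv => ?_
    have h1 := hb v hv
    have h2 := hb' v hv.le
    have h3 : MvPolynomial.eval v p = h v - (h v - MvPolynomial.eval v p) := by ring
    rw [h3, add_mul]
    exact (abs_sub _ _).trans (add_le_add h1 h2)
  refine hf.congr fun v => ?_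
  rw [h0, map_zero, sub_zero]

end Vale.Agent.P207.N3.H70
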