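import Vale.Agent.P207.N3.H70.CE2

/-!
# Triangular systems: the corrected variables (helper70)
-/

open Set Filter Topology Metric Module MvPolynomial
open scoped ContDiff

noncomputable section

namespace Vale.Agent.P207.N3.H70

variable {J : Type} [Fintype J] [DecidableEq J]

namespace TriSys

variable (S : TriSys J)

/-- the normal form with resonant terms `res` -/
def Psi (res : J → MvPolynomial J ℝ) (i : J) : MvPolynomial J ℝ :=
  S.θ i • X i + ∑ j, S.ℓ i j * X j + res i

theorem eval_Psi (res : J → MvPolynomial J ℝ) (v : J → ℝ) (i : J) :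
    pmap (S.Psi res) v i = S.θ i * v i + ∑ j, eval v (S.ℓ i j) * v j + eval v (res i) := by
  simp [pmap, Psi, smul_eval]

/-- admissible resonant terms -/
def ResOK (res : J → MvPolynomial J ℝ) : Prop :=
  ∀ i, res i ∈ supported ℝ (S.D i) ∧
    ∀ α ∈ (res i).support, mult S.θ α = S.θ i ∧ S.ord i ≤ α.degree

omit [Fintype J] [DecidableEq J] in
theorem X_mem_Hi (j : J) : (X j : MvPolynomial J ℝ) ∈ Hi J 1 := by
  rw [mem_Hi]
  intro α hα
  rw [support_X, Finset.mem_singleton] at hα
  rw [hα, Finsupp.degree_single]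

theorem X_mem_Wt (j : J) : (X j : MvPolynomial J ℝ) ∈ Wt S.θ (S.θ j) := by
  rw [mem_Wt]
  intro α hα
  rw [support_X, Finset.mem_singleton] at hα
  rw [hα, mult_single, pow_one]

variable {S}

theorem ResOK.tri {res : J → MvPolynomial J ℝ} (h : S.ResOK res) (i : J) :
    ∀ α ∈ (S.Psi res i - S.θ i • X i : MvPolynomial J ℝ).support,
      mult S.θ α = S.θ i ∧ ∀ k ∈ α.support, S.rk k < S.rk i := by
  intro α hα
  have e : (S.Psi res i - S.θ i • X i : MvPolynomial J ℝ) = ∑ j, S.ℓ i j * X j + res i := by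
    rw [Psi]
    ring
  rw [e] at hα
  rcases Finset.mem_union.1 (support_add hα) with h1 | h1
  · obtain ⟨j, _, h2⟩ := Finset.mem_biUnion.1 (support_sum h1)
    rw [support_mul_X, Finset.mem_map] at h2
    obtain ⟨β, hβ, rfl⟩ := h2
    have hne : S.ℓ i j ≠ 0 := by
      intro h0
      rw [h0, support_zero] at hβ
      exact absurd hβ (Finset.notMem_empty _)
    refine ⟨?_, fun k hk => ?_⟩
    · rw [addRightEmbedding_apply, mult_add, mult_single, pow_one]
      exact S.ℓ_res i j β hβ
    · rw [addRightEmbedding_apply] at hk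
      rcases Finset.mem_union.1 (Finsupp.support_add hk) with h3 | h3
      · exact S.D_rk i k (mem_supported_iff'.1 (S.ℓ_supp i j) β hβ k h3).2
      · have h4 := Finsupp.support_single_subset h3
        rw [Finset.mem_singleton] at h4
        rw [h4]
        exact S.ℓ_rk i j hne
  · exact ⟨((h i).2 α h1).1, fun k hk => S.D_rk i k (mem_supported_iff'.1 (h i).1 α h1 k hk)⟩

theorem ResOK.ge {res : J → MvPolynomial J ℝ} (h : S.ResOK res) (i : J) :
    X i ∈ GE (CC (S.Psi res)) (S.θ i) :=
  ge_of_tri (S.Psi res) (rk := S.rk) (fun j => h.tri j) i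

theorem ResOK.wt {res : J → MvPolynomial J ℝ} (h : S.ResOK res) (i : J) :
    S.Psi res i ∈ Wt S.θ (S.θ i) := by
  have h1 : (S.Psi res i - S.θ i • X i : MvPolynomial J ℝ) ∈ Wt S.θ (S.θ i) :=
    mem_Wt.2 fun α hα => (h.tri i α hα).1
  have h2 := Submodule.add_mem _ h1 (Submodule.smul_mem _ (S.θ i) (S.X_mem_Wt i))
  rwa [sub_add_cancel] at h2

theorem ResOK.hi {res : J → MvPolynomial J ℝ} (h : S.ResOK res) (i : J) :
    S.Psi res i ∈ Hi J 1 := by
  rw [Psi]
  refine Submodule.add_mem _ (Submodule.add_mem _ (Submodule.smul_mem _ _ (X_mem_Hi i))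
    (Submodule.sum_mem _ fun j _ => ?_)) (mem_Hi.2 fun α hα =>
      (S.ord_pos i).trans ((h i).2 α hα).2)
  have h1 : S.ℓ i j ∈ Hi J 0 := mem_Hi.2 fun α _ => Nat.zero_le _
  exact Hi.mul h1 (X_mem_Hi j)

theorem ResOK.closed {res : J → MvPolynomial J ℝ} (h : S.ResOK res) (i : J) :
    ∀ j ∈ S.D i, S.Psi res j ∈ supported ℝ (S.D i) := by
  intro j hj
  rw [Psi]
  have hX : ∀ k ∈ S.D i, (X k : MvPolynomial J ℝ) ∈ supported ℝ (S.D i) :=
    fun k hk => Algebra.subset_adjoin ⟨k, hk, rfl⟩
  refine Subalgebra.add_mem _ (Subalgebra.add_mem _ (Subalgebra.smul_mem _ (hX j hj) _)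
    (Subalgebra.sum_mem _ fun k _ => ?_)) (supported_mono (S.D_trans i j hj) (h j).1)
  by_cases h0 : S.ℓ j k = 0
  · rw [h0, zero_mul]
    exact Subalgebra.zero_mem _
  · exact Subalgebra.mul_mem _ (supported_mono (fun x hx => S.D_trans i j hj hx.2)
      (S.ℓ_supp j k)) (hX k (S.D_ℓ i j hj k h0))

variable (S)

/-- cut off -/
theorem exists_cut (i : J) : ∃ q' : (J → ℝ) → ℝ, IsFlat (S.ord i) q' ∧ DependsOn q' (S.D i) ∧
    (∀ u ∈ ball (0 : J → ℝ) (S.r / 2), q' u = S.q i u) ∧ (i ∈ S.base → q' = 0) := by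
  classical
  by_cases hi : i ∈ S.base
  · have h0 := S.q_base i hi
    refine ⟨0, IsFlat.zero _, fun _ _ _ => rfl, fun u _ => ?_, fun _ => rfl⟩
    rw [h0]
  have hr := S.r_pos
  let χ : ContDiffBump (0 : J → ℝ) := ⟨S.r / 2, 3 * S.r / 4, by positivity, by linarith⟩
  set f : (J → ℝ) → ℝ := fun v => χ v * S.q i v with hf
  have hfs : ContDiff ℝ ∞ f := by
    rw [contDiff_iff_contDiffAt]
    intro v
    by_cases hv : ‖v‖ < S.r
    · have hv' : v ∈ ball (0 : J → ℝ) S.r := mem_ball_zero_iff.2 hv
      exact χ.contDiff.contDiffAt.mul ((S.q_smooth i).contDiffAt (isOpen_ball.mem_nhds hv'))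
    · rw [not_lt] at hv
      have h1 : {w : J → ℝ | 3 * S.r / 4 < ‖w‖} ∈ 𝓝 v :=
        (isOpen_lt continuous_const continuous_norm).mem_nhds (by
          show 3 * S.r / 4 < ‖v‖
          linarith)
      have h2 : f =ᶠ[𝓝 v] fun _ => 0 := by
        filter_upwards [h1] with w hw
        have : χ w = 0 := χ.zero_of_le_dist (by rw [dist_zero_right]; exact le_of_lt hw)
        rw [hf]
        show χ w * _ = 0
        rw [this, zero_mul]
      exact contDiffAt_const.congr_of_eventuallyEq h2
  set π : (J → ℝ) → J → ℝ := fun v j => if j ∈ S.D i then v j else 0 with hπ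
  have hπc : ∀ j, IsFlat 1 fun v => π v j := by
    intro j
    by_cases hj : j ∈ S.D i
    · exact (IsFlat.coord j).congr fun v => by rw [hπ]; simp [hj]
    · exact (IsFlat.zero 1).congr fun v => by rw [hπ]; simp [hj]
  have hπn : ∀ v, ‖π v‖ ≤ ‖v‖ := by
    intro v
    rw [pi_norm_le_iff_of_nonneg (norm_nonneg v)]
    intro j
    rw [hπ]
    by_cases hj : j ∈ S.D i
    · simp only [hj, if_true]
      exact norm_le_pi_norm v j
    · simp [hj]
  have hqπ : ∀ v, S.q i (π v) = S.q i v := by
    intro v
    refine S.q_dep i fun j hj => ?_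
    rw [hπ]
    simp [hj]
  have hval : ∀ v ∈ ball (0 : J → ℝ) (S.r / 2), f (π v) = S.q i v := by
    intro v hv
    have h1 : χ (π v) = 1 := χ.one_of_mem_closedBall (mem_closedBall_zero_iff.2
      ((hπn v).trans (mem_ball_zero_iff.1 hv).le))
    rw [hf]
    show χ (π v) * S.q i (π v) = _
    rw [h1, one_mul, hqπ]
  refine ⟨fun v => f (π v), ?_, ?_, hval, fun h => absurd h hi⟩
  · obtain ⟨C, hC⟩ := S.q_flat i
    refine isFlat_of_bound (hfs.comp (contDiff_pi.2 fun j => (hπc j).1)) (C := C)
      (by positivity : 0 < S.r / 2) fun v hv => ?_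
    rw [hval v (mem_ball_zero_iff.2 hv)]
    exact hC v (mem_ball_zero_iff.2 (by linarith))
  · intro v w hvw
    have : π v = π w := by
      funext j
      rw [hπ]
      by_cases hj : j ∈ S.D i
      · simp only [hj, if_true]
        exact hvw j hj
      · simp [hj]
    show f (π v) = f (π w)
    rw [this]

/-- the cut off nonlinearity -/
def qt (i : J) : (J → ℝ) → ℝ := (S.exists_cut i).choose

theorem qt_spec (i : J) : IsFlat (S.ord i) (S.qt i) ∧ DependsOn (S.qt i) (S.D i) ∧
    (∀ u ∈ ball (0 : J → ℝ) (S.r / 2), S.qt i u = S.q i u) ∧ (i ∈ S.base → S.qt i = 0) :=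
  (S.exists_cut i).choose_spec

/-- the right hand side of the cohomological equation for the variable `i` -/
def hh (R : J → (J → ℝ) → ℝ) (i : J) (v : J → ℝ) : ℝ :=
  S.qt i (fun j => v j - R j v) - ∑ j, eval v (S.ℓ i j) * R j v

variable {S}

theorem hh_flat {R : J → (J → ℝ) → ℝ} (hR : ∀ j, IsFlat (S.ord j) (R j)) (i : J) :
    IsFlat (S.ord i) (S.hh R i) := by
  have h1 : IsFlat (S.ord i) fun v => S.qt i (fun j => v j - R j v) :=
    (S.qt_spec i).1.comp fun j => (IsFlat.coord j).sub ((hR j).mono (S.ord_pos j))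
  have h2 : IsFlat (S.ord i) fun v => ∑ j, eval v (S.ℓ i j) * R j v := by
    refine IsFlat.sum _ fun j _ => ?_
    by_cases h0 : S.ℓ i j = 0
    · exact (IsFlat.zero _).congr fun v => by rw [h0, map_zero, zero_mul]
    · exact IsFlat.mul_left (contDiff_eval _) ((hR j).mono (S.ℓ_ord i j h0))
  exact h1.sub h2

theorem hh_dep {R : J → (J → ℝ) → ℝ} (hR : ∀ j, DependsOn (R j) (S.D j)) (i : J) :
    DependsOn (S.hh R i) (S.D i) := by
  intro v w hvw
  have h1 : S.qt i (fun j => v j - R j v) = S.qt i (fun j => w j - R j w) := by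
    refine (S.qt_spec i).2.1 fun j hj => ?_
    rw [hvw j hj, hR j fun k hk => hvw k (S.D_trans i j hj hk)]
  have h2 : ∀ j, eval v (S.ℓ i j) * R j v = eval w (S.ℓ i j) * R j w := by
    intro j
    by_cases h0 : S.ℓ i j = 0
    · rw [h0, map_zero, map_zero, zero_mul, zero_mul]
    · rw [eval_congr_of_supported (S.ℓ_supp i j) fun k hk => hvw k hk.2,
        hR j fun k hk => hvw k (S.ℓ_D i j h0 hk)]
  rw [hh, hh, h1]
  congr 1
  exact Finset.sum_congr rfl fun j _ => h2 j

theorem hh_congr {R R' : J → (J → ℝ) → ℝ} {i : J} (h : ∀ j, S.rk j < S.rk i → R j = R' j) :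
    S.hh R i = S.hh R' i := by
  funext v
  have h1 : S.qt i (fun j => v j - R j v) = S.qt i (fun j => v j - R' j v) := by
    refine (S.qt_spec i).2.1 fun j hj => ?_
    rw [h j (S.D_rk i j hj)]
  have h2 : ∀ j, eval v (S.ℓ i j) * R j v = eval v (S.ℓ i j) * R' j v := by
    intro j
    by_cases h0 : S.ℓ i j = 0
    · rw [h0, map_zero, zero_mul, zero_mul]
    · rw [h j (S.ℓ_rk i j h0)]
  rw [hh, hh, h1]
  congr 1
  exact Finset.sum_congr rfl fun j _ => h2 j

theorem exists_step (n : ℕ) : ∃ (R : J → (J → ℝ) → ℝ) (res : J → MvPolynomial J ℝ),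
    (∀ i, IsFlat (S.ord i) (R i)) ∧ (∀ i, DependsOn (R i) (S.D i)) ∧ S.ResOK res ∧
    (∀ i ∈ S.base, R i = 0) ∧ (∀ i ∈ S.base, res i = 0) ∧
    ∀ i, S.rk i < n → ∀ v, R i (pmap (S.Psi res) v) - S.θ i * R i v + S.hh R i v
      = eval v (res i) := by
  classical
  induction n with
  | zero =>
    refine ⟨fun _ => 0, fun _ => 0, fun i => IsFlat.zero _, fun i _ _ _ => rfl, fun i => ⟨?_, ?_⟩,
      fun _ _ => rfl, fun _ _ => rfl, fun i hi => absurd hi (Nat.not_lt_zero _)⟩
    · exact Subalgebra.zero_mem _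
    · intro α hα
      rw [support_zero] at hα
      exact absurd hα (Finset.notMem_empty _)
  | succ n ih =>
    obtain ⟨R, res, hRf, hRd, hres, hRb, hrb, hE⟩ := ih
    have hce := fun i => ce (fun j => hres.ge j) S.θ_ne S.θ_lt (fun j => hres.hi j) (S.θ_ne i)
      (hres.closed i) (hh_flat hRf i) (hh_dep hRd i)
    choose R' res' h1 h2 h3 h4 h5 using hce
    refine ⟨fun i => if S.rk i < n then R i else if i ∈ S.base then 0 else R' i,
      fun i => if S.rk i < n then res i else if i ∈ S.base then 0 else res' i,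
      fun i => ?_, fun i => ?_, fun i => ?_, fun i hi => ?_, fun i hi => ?_, fun i hi v => ?_⟩
    · dsimp only
      split_ifs
      · exact hRf i
      · exact IsFlat.zero _
      · exact h1 i
    · dsimp only
      split_ifs
      · exact hRd i
      · exact fun _ _ _ => rfl
      · exact h2 i
    · dsimp only
      split_ifs
      · exact hres i
      · refine ⟨Subalgebra.zero_mem _, fun α hα => ?_⟩
        rw [support_zero] at hα
        exact absurd hα (Finset.notMem_empty _)
      · exact ⟨h3 i, h4 i⟩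
    · dsimp only
      split_ifs
      · exact hRb i hi
      · rfl
    · dsimp only
      split_ifs
      · exact hrb i hi
      · rfl
    · set Rn : J → (J → ℝ) → ℝ :=
        fun i => if S.rk i < n then R i else if i ∈ S.base then 0 else R' i with hRn
      set resn : J → MvPolynomial J ℝ :=
        fun i => if S.rk i < n then res i else if i ∈ S.base then 0 else res' i with hresn
      have hRlt : ∀ j, S.rk j < n → Rn j = R j := fun j hj => by
        rw [hRn]
        simp only [hj, if_true]
      have hreslt : ∀ j, S.rk j < n → resn j = res j := fun j hj => by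
        rw [hresn]
        simp only [hj, if_true]
      have hhe : S.hh Rn i = S.hh R i := hh_congr fun j hj => hRlt j (by omega)
      have hpm : ∀ j ∈ S.D i, pmap (S.Psi resn) v j = pmap (S.Psi res) v j := by
        intro j hj
        have := S.D_rk i j hj
        rw [eval_Psi, eval_Psi, hreslt j (by omega)]
      rw [hhe]
      by_cases hin : S.rk i < n
      · rw [hRlt i hin, hreslt i hin, hRd i hpm]
        exact hE i hin v
      · by_cases hb : i ∈ S.base
        · have e1 : Rn i = 0 := by
            rw [hRn]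
            simp only [hin, if_false, hb, if_true]
          have e2 : resn i = 0 := by
            rw [hresn]
            simp only [hin, if_false, hb, if_true]
          have e3 : S.hh R i v = 0 := by
            rw [hh, (S.qt_spec i).2.2.2 hb]
            have : ∀ j, eval v (S.ℓ i j) * R j v = 0 := by
              intro j
              by_cases h0 : S.ℓ i j = 0
              · rw [h0, map_zero, zero_mul]
              · rw [hRb j (S.ℓ_base i hb j h0), Pi.zero_apply, mul_zero]
            rw [Finset.sum_congr rfl fun j _ => this j]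
            simp
          rw [e1, e2, e3]
          simp
        · have e1 : Rn i = R' i := by
            rw [hRn]
            simp only [hin, if_false, hb]
          have e2 : resn i = res' i := by
            rw [hresn]
            simp only [hin, if_false, hb]
          rw [e1, e2, h2 i hpm]
          exact h5 i v

end TriSys

end Vale.Agent.P207.N3.H70
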