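import Vale.Agent.P207.N3.H70.GE

/-!
# The cohomological equation for polynomials (helper70)
-/

open Finset Module MvPolynomial

noncomputable section

namespace Vale.Agent.P207.N3.H70

variable {J : Type} (Ψ : J → MvPolynomial J ℝ)

/-- composition with the polynomial map `Ψ` -/
abbrev CC : MvPolynomial J ℝ →ₐ[ℝ] MvPolynomial J ℝ := aeval Ψ

theorem CC_monomial (α : J →₀ ℕ) (c : ℝ) :
    CC Ψ (monomial α c) = c • ∏ j ∈ α.support, Ψ j ^ α j := by
  rw [CC, aeval_monomial, Finsupp.prod, algebraMap_eq, smul_eq_C_mul]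

theorem monomial_ge {θ : J → ℝ} {α : J →₀ ℕ} (hΨ : ∀ j ∈ α.support, X j ∈ GE (CC Ψ) (θ j))
    (c : ℝ) : monomial α c ∈ GE (CC Ψ) (mult θ α) := by
  rw [monomial_eq, ← smul_eq_C_mul]
  refine Submodule.smul_mem _ _ ?_
  exact ge_prod (CC Ψ) α.support fun j hj => ge_pow (CC Ψ) (hΨ j hj) (α j)

theorem mem_of_monomials {S : Submodule ℝ (MvPolynomial J ℝ)} {p : MvPolynomial J ℝ}
    (h : ∀ α ∈ p.support, monomial α (p.coeff α) ∈ S) : p ∈ S := by
  rw [p.as_sum]
  exact Submodule.sum_mem _ h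

/-- triangularity implies that the coordinates are generalised eigenvectors -/
theorem ge_of_tri {θ : J → ℝ} {rk : J → ℕ}
    (hΨ : ∀ j, ∀ α ∈ (Ψ j - θ j • X j : MvPolynomial J ℝ).support,
      mult θ α = θ j ∧ ∀ k ∈ α.support, rk k < rk j) (j : J) : X j ∈ GE (CC Ψ) (θ j) := by
  induction hn : rk j using Nat.strong_induction_on generalizing j with
  | _ n ih =>
    refine ge_of_dl (CC Ψ) ?_
    have e : dl (CC Ψ) (θ j) (X j) = Ψ j - θ j • X j := by
      rw [dl_apply, CC, aeval_X]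
    rw [e]
    refine mem_of_monomials fun α hα => ?_
    obtain ⟨h1, h2⟩ := hΨ j α hα
    have := monomial_ge Ψ (θ := θ) (α := α) (fun k hk => ih (rk k) (hn ▸ h2 k hk) k rfl)
      ((Ψ j - θ j • X j : MvPolynomial J ℝ).coeff α)
    rwa [h1] at this

theorem Wt.prod {ι : Type*} {θ : J → ℝ} (s : Finset ι) {l : ι → ℝ} {f : ι → MvPolynomial J ℝ}
    (hf : ∀ i ∈ s, f i ∈ Wt θ (l i)) : ∏ i ∈ s, f i ∈ Wt θ (∏ i ∈ s, l i) := by
  classical
  induction s using Finset.induction_on with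
  | empty =>
    rw [prod_empty, prod_empty, mem_Wt]
    intro α hα
    rw [← C_1, support_C, if_neg one_ne_zero, mem_singleton] at hα
    rw [hα, mult_zero]
  | insert a s ha ih =>
    rw [prod_insert ha, prod_insert ha]
    exact Wt.mul (hf a (mem_insert_self a s)) (ih fun i hi => hf i (mem_insert_of_mem hi))

theorem Wt.pow {θ : J → ℝ} {l : ℝ} {f : MvPolynomial J ℝ} (hf : f ∈ Wt θ l) (n : ℕ) :
    f ^ n ∈ Wt θ (l ^ n) := by
  have := Wt.prod (θ := θ) (range n) (l := fun _ => l) (f := fun _ => f) fun _ _ => hf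
  simpa using this

theorem Hi.prod {ι : Type*} (s : Finset ι) {l : ι → ℕ} {f : ι → MvPolynomial J ℝ}
    (hf : ∀ i ∈ s, f i ∈ Hi J (l i)) : ∏ i ∈ s, f i ∈ Hi J (∑ i ∈ s, l i) := by
  classical
  induction s using Finset.induction_on with
  | empty =>
    rw [sum_empty, mem_Hi]
    intro α _
    exact Nat.zero_le _
  | insert a s ha ih =>
    rw [prod_insert ha, sum_insert ha]
    exact Hi.mul (hf a (mem_insert_self a s)) (ih fun i hi => hf i (mem_insert_of_mem hi))

theorem Hi.pow {a : ℕ} {f : MvPolynomial J ℝ} (hf : f ∈ Hi J a) (n : ℕ) :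
    f ^ n ∈ Hi J (n * a) := by
  have := Hi.prod (J := J) (range n) (l := fun _ => a) (f := fun _ => f) fun _ _ => hf
  simpa using this

/-- composition preserves multipliers -/
theorem CC_Wt {θ : J → ℝ} (hΨ : ∀ j, Ψ j ∈ Wt θ (θ j)) {l : ℝ} {p : MvPolynomial J ℝ}
    (hp : p ∈ Wt θ l) : CC Ψ p ∈ Wt θ l := by
  have e : CC Ψ p = ∑ α ∈ p.support, CC Ψ (monomial α (p.coeff α)) := by
    rw [← map_sum, support_sum_monomial_coeff]
  rw [e]
  refine Submodule.sum_mem _ fun α hα => ?_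
  rw [CC_monomial]
  refine Submodule.smul_mem _ _ ?_
  have h1 := Wt.prod (θ := θ) α.support (l := fun j => θ j ^ α j) (f := fun j => Ψ j ^ α j)
    fun j _ => Wt.pow (hΨ j) _
  have h2 : ∏ j ∈ α.support, θ j ^ α j = l := (mem_Wt.1 hp) α hα
  rwa [h2] at h1

/-- composition preserves the order of vanishing -/
theorem CC_Hi (hΨ : ∀ j, Ψ j ∈ Hi J 1) {o : ℕ} {p : MvPolynomial J ℝ}
    (hp : p ∈ Hi J o) : CC Ψ p ∈ Hi J o := by
  have e : CC Ψ p = ∑ α ∈ p.support, CC Ψ (monomial α (p.coeff α)) := by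
    rw [← map_sum, support_sum_monomial_coeff]
  rw [e]
  refine Submodule.sum_mem _ fun α hα => ?_
  rw [CC_monomial]
  refine Submodule.smul_mem _ _ ?_
  have h1 := Hi.prod (J := J) α.support (l := fun j => α j * 1) (f := fun j => Ψ j ^ α j)
    fun j _ => Hi.pow (hΨ j) _
  simp only [mul_one] at h1
  have h2 : o ≤ ∑ j ∈ α.support, α j := (mem_Hi.1 hp) α hα
  rw [mem_Hi] at *
  exact fun β hβ => h2.trans (h1 β hβ)

/-- composition preserves closed sets of variables -/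
theorem CC_supported {D : Set J} (hΨ : ∀ j ∈ D, Ψ j ∈ supported ℝ D) {p : MvPolynomial J ℝ}
    (hp : p ∈ supported ℝ D) : CC Ψ p ∈ supported ℝ D := by
  have : supported ℝ D ≤ (supported ℝ D).comap (CC Ψ) := by
    refine Algebra.adjoin_le ?_
    rintro _ ⟨j, hj, rfl⟩
    show CC Ψ (X j) ∈ supported ℝ D
    rw [CC, aeval_X]
    exact hΨ j hj
  exact this hp

/-- the cohomological equation for polynomials -/
theorem poly_ce {θ : J → ℝ} (hΨ : ∀ j, X j ∈ GE (CC Ψ) (θ j)) (m : ℝ) (p : MvPolynomial J ℝ) :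
    ∃ R res : MvPolynomial J ℝ, CC Ψ R - m • R + p = res ∧
      (∀ α ∈ res.support, mult θ α = m ∧ α ∈ p.support) ∧
      ∀ S : Submodule ℝ (MvPolynomial J ℝ), (∀ g ∈ S, CC Ψ g ∈ S) →
        (∀ α ∈ p.support, monomial α (p.coeff α) ∈ S) → R ∈ S := by
  classical
  have h1 : ∀ α : J →₀ ℕ, mult θ α ≠ m → ∃ R : MvPolynomial J ℝ,
      CC Ψ R - m • R = -monomial α (p.coeff α) ∧
      ∀ S : Submodule ℝ (MvPolynomial J ℝ), (∀ g ∈ S, CC Ψ g ∈ S) →
        -monomial α (p.coeff α) ∈ S → R ∈ S := fun α hα =>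
    ge_solve (CC Ψ) hα (Submodule.neg_mem _ (monomial_ge Ψ (fun j _ => hΨ j) _))
  choose! R hR hS using h1
  refine ⟨∑ α ∈ p.support.filter (fun α => mult θ α ≠ m), R α,
    ∑ α ∈ p.support.filter (fun α => ¬ mult θ α ≠ m), monomial α (p.coeff α), ?_, ?_, ?_⟩
  · rw [map_sum, smul_sum, ← sum_sub_distrib]
    have h2 : ∑ α ∈ p.support.filter (fun α => mult θ α ≠ m), (CC Ψ (R α) - m • R α)
        = -∑ α ∈ p.support.filter (fun α => mult θ α ≠ m), monomial α (p.coeff α) := by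
      rw [← sum_neg_distrib]
      exact sum_congr rfl fun α hα => hR α (mem_filter.1 hα).2
    have h3 := sum_filter_add_sum_filter_not p.support (fun α => mult θ α ≠ m)
      fun α => monomial α (p.coeff α)
    rw [support_sum_monomial_coeff] at h3
    rw [h2]
    linear_combination (exp := 1) -h3
  · intro α hα
    obtain ⟨β, hβ, h3⟩ := mem_biUnion.1 (support_sum hα)
    have h4 : α = β := by
      by_contra hne
      rw [MvPolynomial.mem_support_iff, coeff_monomial, if_neg (Ne.symm hne)] at h3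
      exact h3 rfl
    rw [h4]
    obtain ⟨h5, h6⟩ := mem_filter.1 hβ
    exact ⟨not_not.1 h6, h5⟩
  · intro S h4 h5
    refine Submodule.sum_mem _ fun α hα => ?_
    obtain ⟨h6, h7⟩ := mem_filter.1 hα
    exact hS α h7 S h4 (Submodule.neg_mem _ (h5 α h6))

end Vale.Agent.P207.N3.H70
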