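import Vale.Agent.P207.N3.H70.Flat
import Vale.Agent.P207.N3.H70.Poly

/-!
# Iterates of weighted polynomial maps; series of flat functions are smooth (helper70)
-/

open Set Filter Topology Metric Module
open scoped ContDiff

noncomputable section

namespace Vale.Agent.P207.N3.H70

/-- derivatives in the second variable of a jointly smooth function, compactly supported in it -/
theorem bound_iter {P E : Type*} [NormedAddCommGroup P] [NormedSpace ℝ P]
    [NormedAddCommGroup E] [NormedSpace ℝ E] [ProperSpace E]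
    {H : P × E → ℝ} (hH : ContDiff ℝ ∞ H) {Kp : Set P} (hK : IsCompact Kp) {ρ : ℝ}
    (h0 : ∀ p v, ρ < ‖v‖ → H (p, v) = 0) (k : ℕ) :
    ∃ C : ℝ, 0 ≤ C ∧ ∀ p ∈ Kp, ∀ v, ‖iteratedFDeriv ℝ k (fun v => H (p, v)) v‖ ≤ C := by
  have hc : IsCompact (Kp ×ˢ closedBall (0 : E) ρ) := hK.prod (isCompact_closedBall _ _)
  obtain ⟨C, hC⟩ := hc.exists_bound_of_continuousOn
    (hH.continuous_iteratedFDeriv (m := k) (by exact_mod_cast le_top)).continuousOn
  refine ⟨max C 0, le_max_right _ _, fun p hp v => ?_⟩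
  by_cases hv : ρ < ‖v‖
  · have h1 : (fun v => H (p, v)) =ᶠ[𝓝 v] fun _ => 0 := by
      have : {v : E | ρ < ‖v‖} ∈ 𝓝 v := (isOpen_lt continuous_const continuous_norm).mem_nhds hv
      filter_upwards [this] with w hw
      exact h0 p w hw
    have h2 : v ∉ tsupport fun v => H (p, v) := by
      rw [notMem_tsupport_iff_eventuallyEq]
      exact h1
    have h3 : iteratedFDeriv ℝ k (fun v => H (p, v)) v = 0 := by
      by_contra hne
      exact h2 (support_iteratedFDeriv_subset k (Function.mem_support.2 hne))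
    rw [h3, norm_zero]
    exact le_max_right _ _
  · rw [not_lt] at hv
    have e : (fun v => H (p, v)) = (fun z => H (z + (p, 0))) ∘ (ContinuousLinearMap.inr ℝ P E) := by
      funext w
      simp
    have hs : ContDiff ℝ ∞ fun z => H (z + (p, 0)) := hH.comp (contDiff_id.add contDiff_const)
    rw [e, ContinuousLinearMap.iteratedFDeriv_comp_right _ hs _ (i := k) (by exact_mod_cast le_top),
      iteratedFDeriv_comp_add_right]
    refine (ContinuousMultilinearMap.norm_compContinuousLinearMap_le _ _).trans ?_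
    have h3 : ∏ _i : Fin k, ‖ContinuousLinearMap.inr ℝ P E‖ ≤ 1 :=
      Finset.prod_le_one (fun _ _ => norm_nonneg _) fun _ _ => ContinuousLinearMap.norm_inr_le_one _ _ _
    have h4 := hC (p, v) ⟨hp, mem_closedBall_zero_iff.2 hv⟩
    have h5 : (ContinuousLinearMap.inr ℝ P E) v + (p, 0) = (p, v) := by simp
    rw [h5]
    calc ‖iteratedFDeriv ℝ k H (p, v)‖ * ∏ _i : Fin k, ‖ContinuousLinearMap.inr ℝ P E‖
        ≤ ‖iteratedFDeriv ℝ k H (p, v)‖ * 1 := mul_le_mul_of_nonneg_left h3 (norm_nonneg _)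
      _ = ‖iteratedFDeriv ℝ k H (p, v)‖ := mul_one _
      _ ≤ max C 0 := h4.trans (le_max_left _ _)

theorem exists_sigma {J : Type} [Finite J] {θ : J → ℝ} (h1 : ∀ j, |θ j| < 1) :
    ∃ σ : ℝ, 0 < σ ∧ σ < 1 ∧ ∀ j, |θ j| < σ := by
  have h2 : ∀ᶠ σ in 𝓝[<] (1 : ℝ), ∀ j, |θ j| < σ := by
    rw [eventually_all]
    intro j
    filter_upwards [Ioo_mem_nhdsLT (h1 j)] with σ hσ
    exact hσ.1
  have h3 : ∀ᶠ σ in 𝓝[<] (1 : ℝ), 0 < σ ∧ σ < 1 := by
    filter_upwards [Ioo_mem_nhdsLT (zero_lt_one (α := ℝ))] with σ hσ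
    exact hσ
  obtain ⟨σ, h4, h5, h6⟩ := (h2.and h3).exists
  exact ⟨σ, h5, h6, h4⟩

/-- the coefficients of the iterates are bounded by `σ ^ n` -/
theorem coef_bound {t σ : ℝ} (ht : t ≠ 0) (htσ : |t| < σ) (i : ℕ) :
    ∃ B : ℝ, 0 ≤ B ∧ ∀ n : ℕ, |(n.choose i : ℝ) * t ^ (n - i) / σ ^ n| ≤ B := by
  have hσ : 0 < σ := (abs_nonneg t).trans_lt htσ
  have hr : |(|t| / σ)| < 1 := by
    rw [abs_div, abs_abs, abs_of_pos hσ, div_lt_one hσ]
    exact htσ
  obtain ⟨B, hB⟩ := (tendsto_pow_const_mul_const_pow_of_abs_lt_one i hr).bddAbove_range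
  have hB' : ∀ n : ℕ, (n : ℝ) ^ i * (|t| / σ) ^ n ≤ B := fun n => hB ⟨n, rfl⟩
  have hB0 : 0 ≤ B := le_trans (by positivity) (hB' 0)
  refine ⟨B * (|t|⁻¹) ^ i, by positivity, fun n => ?_⟩
  have ht' : 0 < |t| := abs_pos.2 ht
  rcases lt_or_ge n i with hn | hn
  · rw [Nat.choose_eq_zero_of_lt hn, Nat.cast_zero, zero_mul, zero_div, abs_zero]
    positivity
  · rw [abs_div, abs_mul, abs_pow, abs_pow, abs_of_pos hσ, Nat.abs_cast]
    have h1 : (n.choose i : ℝ) ≤ (n : ℝ) ^ i := by exact_mod_cast Nat.choose_le_pow n i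
    have h2 : |t| ^ (n - i) = |t| ^ n * |t|⁻¹ ^ i := by
      rw [inv_pow, ← div_eq_mul_inv, eq_div_iff (by positivity), ← pow_add]
      congr 1
      omega
    rw [h2]
    calc (n.choose i : ℝ) * (|t| ^ n * |t|⁻¹ ^ i) / σ ^ n
        = (n.choose i : ℝ) * ((|t| / σ) ^ n * |t|⁻¹ ^ i) := by rw [div_pow]; ring
      _ ≤ (n : ℝ) ^ i * ((|t| / σ) ^ n * |t|⁻¹ ^ i) := by gcongr
      _ = (n : ℝ) ^ i * (|t| / σ) ^ n * |t|⁻¹ ^ i := by ring
      _ ≤ B * |t|⁻¹ ^ i := by gcongr; exact hB' n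

variable {J : Type} [Fintype J] {Ψ : J → MvPolynomial J ℝ} {θ : J → ℝ}

/-- **iterates**: `ψ ^ n v = σ ^ n M (τ_n, v)` with `M` smooth and linear in the bounded
parameters `τ_n` -/
theorem exists_iter (hΨ : ∀ j, MvPolynomial.X j ∈ GE (CC Ψ) (θ j)) (h0 : ∀ j, θ j ≠ 0) {σ : ℝ}
    (hσ : ∀ j, |θ j| < σ) (hσ0 : 0 < σ) (hH : ∀ j, Ψ j ∈ Hi J 1) :
    ∃ (N : ℕ) (c : J → Fin N → MvPolynomial J ℝ) (τ : ℕ → J → Fin N → ℝ) (T : ℝ),
      (∀ j i, c j i ∈ Hi J 1) ∧ (∀ n, ‖τ n‖ ≤ T) ∧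
      ∀ n v j, ((pmap Ψ)^[n] v) j = σ ^ n * ∑ i, τ n j i * MvPolynomial.eval v (c j i) := by
  choose N hN using fun j => (mem_GE (CC Ψ)).1 (hΨ j)
  set N0 := Finset.univ.sup N with hN0
  have hz : ∀ j, (dl (CC Ψ) (θ j) ^ N0) (MvPolynomial.X j) = 0 := by
    intro j
    obtain ⟨k, hk⟩ := Nat.exists_eq_add_of_le (Finset.le_sup (f := N) (Finset.mem_univ j))
    rw [hN0, hk, add_comm, pow_add, Module.End.mul_apply, hN j, map_zero]
  choose B hB0 hB using fun (j : J) (i : ℕ) => coef_bound (h0 j) (hσ j) i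
  have hT : 0 ≤ ∑ j, ∑ i : Fin N0, B j i :=
    Finset.sum_nonneg fun j _ => Finset.sum_nonneg fun i _ => hB0 j i
  refine ⟨N0, fun j i => (dl (CC Ψ) (θ j) ^ (i : ℕ)) (MvPolynomial.X j),
    fun n j i => (n.choose i : ℝ) * θ j ^ (n - i) / σ ^ n, ∑ j, ∑ i : Fin N0, B j i, ?_, ?_, ?_⟩
  · intro j i
    have h1 : MvPolynomial.X j ∈ Hi J 1 := by
      rw [mem_Hi]
      intro α hα
      rw [MvPolynomial.support_X, Finset.mem_singleton] at hα
      rw [hα, Finsupp.degree_single]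
    have h2 : ∀ (k : ℕ) (f : MvPolynomial J ℝ), f ∈ Hi J 1 → (dl (CC Ψ) (θ j) ^ k) f ∈ Hi J 1 := by
      intro k
      induction k with
      | zero => exact fun f hf => hf
      | succ k ih =>
        intro f hf
        rw [dl_pow_succ]
        exact ih _ (Submodule.sub_mem _ (CC_Hi Ψ hH hf) (Submodule.smul_mem _ _ hf))
    exact h2 i _ h1
  · intro n
    rw [pi_norm_le_iff_of_nonneg hT]
    intro j
    rw [pi_norm_le_iff_of_nonneg hT]
    intro i
    rw [Real.norm_eq_abs]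
    refine (hB j i n).trans ?_
    refine (Finset.single_le_sum (f := fun i : Fin N0 => B j i) (fun i _ => hB0 j i)
      (Finset.mem_univ i)).trans ?_
    exact Finset.single_le_sum (f := fun j => ∑ i : Fin N0, B j i)
      (fun j _ => Finset.sum_nonneg fun i _ => hB0 j i) (Finset.mem_univ j)
  · intro n v j
    have h1 : ((pmap Ψ)^[n] v) j = MvPolynomial.eval ((pmap Ψ)^[n] v) (MvPolynomial.X j) :=
      (MvPolynomial.eval_X _).symm
    rw [h1, ← eval_iter, iter_eq (CC Ψ) (hz j) n, map_sum, Finset.mul_sum,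
      Finset.sum_range]
    refine Finset.sum_congr rfl fun i _ => ?_
    rw [MvPolynomial.smul_eval]
    have : σ ^ n ≠ 0 := by positivity
    field_simp

end Vale.Agent.P207.N3.H70
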